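import Vale.Agent.P333.Defs

/-!
P333: blowing up every letter `k` times commutes with the greedy algorithm, so that one instance
on which greedy is bad gives arbitrarily long instances with the same ratio.
-/

namespace Vale.Agent.P333

universe u

variable {α : Type u}

/-- every letter of `s` repeated `k` times -/
def blow (k : ℕ) (s : List α) : List α := s.flatMap fun c => List.replicate k c

@[simp] theorem blow_nil (k : ℕ) : blow k ([] : List α) = [] := rfl

theorem blow_cons (k : ℕ) (c : α) (s : List α) :
    blow k (c :: s) = List.replicate k c ++ blow k s := rfl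

theorem blow_append (k : ℕ) (s t : List α) : blow k (s ++ t) = blow k s ++ blow k t := by
  simp [blow]

@[simp] theorem length_blow (k : ℕ) (s : List α) : (blow k s).length = k * s.length := by
  induction s with
  | nil => simp
  | cons c s ih => rw [blow_cons, List.length_append, ih]; simp; ring

theorem blow_getElem? {k : ℕ} (hk : 0 < k) (s : List α) (p : ℕ) : (blow k s)[p]? = s[p / k]? := by
  induction s generalizing p with
  | nil => simp
  | cons c s ih =>
    rw [blow_cons]
    rcases lt_or_ge p k with h | h
    · rw [List.getElem?_append_left (by simpa using h), Nat.div_eq_of_lt h]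
      simp [h]
    · rw [List.getElem?_append_right (by simpa using h), List.length_replicate, ih]
      have : p / k = (p - k) / k + 1 := by
        conv_lhs => rw [← Nat.sub_add_cancel h]
        exact Nat.add_div_right _ hk
      rw [this, List.getElem?_cons_succ]

theorem blow_infix (k : ℕ) {s t : List α} (h : s <:+: t) : blow k s <:+: blow k t := by
  obtain ⟨a, b, rfl⟩ := h
  exact ⟨blow k a, blow k b, by simp [blow_append]⟩

theorem blow_prefix (k : ℕ) {s t : List α} (h : s <+: t) : blow k s <+: blow k t := by
  obtain ⟨b, rfl⟩ := h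
  exact ⟨blow k b, by simp [blow_append]⟩

theorem blow_suffix (k : ℕ) {s t : List α} (h : s <:+ t) : blow k s <:+ blow k t := by
  obtain ⟨b, rfl⟩ := h
  exact ⟨blow k b, by simp [blow_append]⟩

theorem drop_blow (k m : ℕ) (t : List α) : (blow k t).drop (k * m) = blow k (t.drop m) := by
  rcases le_or_gt m t.length with h | h
  · have h1 : blow k t = blow k (t.take m) ++ blow k (t.drop m) := by
      rw [← blow_append, List.take_append_drop]
    rw [h1]
    exact List.drop_left' (by rw [length_blow, List.length_take, min_eq_left h])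
  · rw [List.drop_eq_nil_of_le (by rw [length_blow]; exact Nat.mul_le_mul_left _ h.le),
      List.drop_eq_nil_of_le h.le, blow_nil]

theorem infix_of_blow {k : ℕ} (hk : 0 < k) {s t : List α} (h : blow k s <:+: blow k t) :
    s <:+: t := by
  obtain ⟨a, b, hab⟩ := h
  have key : s = (t.drop (a.length / k)).take s.length := by
    apply List.ext_getElem?
    intro i
    rw [List.getElem?_take]
    split
    · next hi =>
      rw [List.getElem?_drop]
      have h1 : (blow k t)[a.length + k * i]? = t[a.length / k + i]? := by
        rw [blow_getElem? hk, Nat.add_mul_div_left _ _ hk]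
      have h2 : (blow k s)[k * i]? = s[i]? := by
        rw [blow_getElem? hk, Nat.mul_div_cancel_left _ hk]
      rw [← h1, ← h2, ← hab, List.append_assoc, List.getElem?_append_right (by omega),
        Nat.add_sub_cancel_left, List.getElem?_append_left]
      rw [length_blow]
      exact Nat.mul_lt_mul_of_pos_left hi hk
    · next hi =>
      exact List.getElem?_eq_none (by omega)
  rw [key]
  exact (List.take_prefix _ _).isInfix.trans (List.drop_suffix _ _).isInfix

theorem blow_injective {k : ℕ} (hk : 0 < k) : Function.Injective (blow k : List α → List α) := by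
  intro s t h
  have hl : s.length = t.length := by
    have := congrArg List.length h
    simp only [length_blow] at this
    exact Nat.eq_of_mul_eq_mul_left hk this
  exact (infix_of_blow hk (h ▸ List.infix_rfl)).eq_of_length hl

/-- the longest overlap of two blown up strings is the blow up of an overlap -/
theorem overlap_of_blow {k : ℕ} (hk : 0 < k) {s t o : List α} (h1 : o <:+ blow k s)
    (h2 : o <+: blow k t) : ∃ o', o' <:+ s ∧ o' <+: t ∧ o.length ≤ k * o'.length := by
  obtain ⟨a, ha⟩ := h1
  obtain ⟨b, hb⟩ := h2
  have hla : a.length + o.length = k * s.length := by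
    rw [← length_blow, ← ha, List.length_append]
  have hdm := Nat.div_add_mod a.length k
  have hm := Nat.mod_lt a.length hk
  set q := a.length / k with hq
  have hqs : k * q ≤ k * s.length := by omega
  have hqs' : q ≤ s.length := Nat.le_of_mul_le_mul_left hqs hk
  have key : s.drop q = t.take (s.length - q) := by
    apply List.ext_getElem?
    intro i
    rw [List.getElem?_take, List.getElem?_drop]
    split
    · next hi =>
      have h3 : (blow k s)[a.length + k * i]? = s[q + i]? := by
        rw [blow_getElem? hk, Nat.add_mul_div_left _ _ hk]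
      have h4 : (blow k t)[k * i]? = t[i]? := by
        rw [blow_getElem? hk, Nat.mul_div_cancel_left _ hk]
      have hlt : k * i < o.length := by
        have : k * (q + i + 1) ≤ k * s.length := Nat.mul_le_mul_left _ (by omega)
        rw [Nat.mul_add, Nat.mul_add] at this
        omega
      rw [← h3, ← h4, ← ha, ← hb, List.getElem?_append_right (by omega),
        Nat.add_sub_cancel_left, List.getElem?_append_left hlt]
    · next hi =>
      exact List.getElem?_eq_none (by omega)
  refine ⟨s.drop q, List.drop_suffix _ _, key ▸ List.take_prefix _ _, ?_⟩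
  rw [List.length_drop, Nat.mul_sub]
  omega

section Greedy

variable [DecidableEq α]

theorem reduceFamily_blow {k : ℕ} (hk : 0 < k) (S : Finset (List α)) :
    reduceFamily (S.image (blow k)) = (reduceFamily S).image (blow k) := by
  ext x
  simp only [reduceFamily, Finset.mem_filter, Finset.mem_image]
  constructor
  · rintro ⟨⟨s, hs, rfl⟩, h⟩
    exact ⟨s, ⟨hs, fun t ht hst => blow_injective hk (h _ ⟨t, ht, rfl⟩ (blow_infix k hst))⟩, rfl⟩
  · rintro ⟨s, ⟨hs, h⟩, rfl⟩
    refine ⟨⟨s, hs, rfl⟩, ?_⟩
    rintro _ ⟨t, ht, rfl⟩ hst
    rw [h t ht (infix_of_blow hk hst)]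

theorem merge_blow (k : ℕ) (F : Finset (List α)) (s t o : List α)
    (hk : 0 < k) :
    (insert (s ++ t.drop o.length) ((F.erase s).erase t)).image (blow k) =
      insert (blow k s ++ (blow k t).drop (k * o.length))
        (((F.image (blow k)).erase (blow k s)).erase (blow k t)) := by
  rw [Finset.image_insert, Finset.image_erase (blow_injective hk),
    Finset.image_erase (blow_injective hk), blow_append, drop_blow]

theorem greedyStep_blow {k : ℕ} (hk : 0 < k) {F F' : Finset (List α)} (h : GreedyStep F F') :
    GreedyStep (F.image (blow k)) (F'.image (blow k)) := by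
  obtain ⟨s, hs, t, ht, hst, o, h1, h2, hmax, rfl⟩ := h
  refine ⟨blow k s, Finset.mem_image_of_mem _ hs, blow k t, Finset.mem_image_of_mem _ ht,
    fun e => hst (blow_injective hk e), blow k o, blow_suffix k h1, blow_prefix k h2, ?_, ?_⟩
  · intro s' hs' t' ht' hne o' ho1 ho2
    obtain ⟨s1, hs1, rfl⟩ := Finset.mem_image.1 hs'
    obtain ⟨t1, ht1, rfl⟩ := Finset.mem_image.1 ht'
    obtain ⟨o1, g1, g2, g3⟩ := overlap_of_blow hk ho1 ho2
    have := hmax s1 hs1 t1 ht1 (fun e => hne (by rw [e])) o1 g1 g2
    rw [length_blow]
    exact g3.trans (Nat.mul_le_mul_left _ this)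
  · rw [merge_blow k F s t o hk, length_blow]

theorem greedyStep_of_blow {k : ℕ} (hk : 0 < k) {F : Finset (List α)} {F'' : Finset (List α)}
    (h : GreedyStep (F.image (blow k)) F'') :
    ∃ F', GreedyStep F F' ∧ F'' = F'.image (blow k) := by
  obtain ⟨x, hx, y, hy, hxy, o, h1, h2, hmax, rfl⟩ := h
  obtain ⟨s, hs, rfl⟩ := Finset.mem_image.1 hx
  obtain ⟨t, ht, rfl⟩ := Finset.mem_image.1 hy
  obtain ⟨o', g1, g2, g3⟩ := overlap_of_blow hk h1 h2
  have g4 := hmax _ hx _ hy hxy (blow k o') (blow_suffix k g1) (blow_prefix k g2)
  rw [length_blow] at g4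
  have g5 : o.length = k * o'.length := le_antisymm g3 g4
  refine ⟨insert (s ++ t.drop o'.length) ((F.erase s).erase t),
    ⟨s, hs, t, ht, fun e => hxy (by rw [e]), o', g1, g2, ?_, rfl⟩, ?_⟩
  · intro s' hs' t' ht' hne o1 k1 k2
    have := hmax _ (Finset.mem_image_of_mem _ hs') _ (Finset.mem_image_of_mem _ ht')
      (fun e => hne (blow_injective hk e)) (blow k o1) (blow_suffix k k1) (blow_prefix k k2)
    rw [length_blow, g5] at this
    exact Nat.le_of_mul_le_mul_left this hk
  · rw [merge_blow k F s t o' hk, g5]

theorem isGreedyOutput_blow {k : ℕ} (hk : 0 < k) {S : Finset (List α)} {G : List α}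
    (h : IsGreedyOutput S G) : IsGreedyOutput (S.image (blow k)) (blow k G) := by
  unfold IsGreedyOutput at *
  rw [reduceFamily_blow hk]
  have : ∀ F, Relation.ReflTransGen GreedyStep (reduceFamily S) F →
      Relation.ReflTransGen GreedyStep ((reduceFamily S).image (blow k)) (F.image (blow k)) := by
    intro F hF
    induction hF with
    | refl => exact .refl
    | tail _ h2 ih => exact ih.tail (greedyStep_blow hk h2)
  simpa using this _ h

theorem isGreedyOutput_of_blow {k : ℕ} (hk : 0 < k) {S : Finset (List α)} {G : List α}
    (h : IsGreedyOutput (S.image (blow k)) G) : ∃ G', IsGreedyOutput S G' ∧ G = blow k G' := by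
  unfold IsGreedyOutput at *
  rw [reduceFamily_blow hk] at h
  have : ∀ F, Relation.ReflTransGen GreedyStep ((reduceFamily S).image (blow k)) F →
      ∃ F', Relation.ReflTransGen GreedyStep (reduceFamily S) F' ∧ F = F'.image (blow k) := by
    intro F hF
    induction hF with
    | refl => exact ⟨_, .refl, rfl⟩
    | tail _ h2 ih =>
      obtain ⟨F', hF', rfl⟩ := ih
      obtain ⟨F1, hF1, rfl⟩ := greedyStep_of_blow hk h2
      exact ⟨F1, hF'.tail hF1, rfl⟩
  obtain ⟨F', hF', he⟩ := this _ h
  have hm : G ∈ F'.image (blow k) := he ▸ Finset.mem_singleton_self G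
  obtain ⟨G', hG', rfl⟩ := Finset.mem_image.1 hm
  have h1 : F' = {G'} := by
    apply Finset.eq_singleton_iff_unique_mem.2 ⟨hG', ?_⟩
    intro x hx
    have : blow k x ∈ F'.image (blow k) := Finset.mem_image_of_mem _ hx
    rw [← he, Finset.mem_singleton] at this
    exact blow_injective hk this
  exact ⟨G', h1 ▸ hF', rfl⟩

/-- From one family on which every greedy output is longer than `c / d` times a common
superstring to arbitrarily long ones. -/
theorem blow_up_family {c d : ℕ} {S : Finset (List α)} {T : List α} (hT : ∀ s ∈ S, s <:+: T)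
    (hT0 : T ≠ []) (hG : ∀ G, IsGreedyOutput S G → c * T.length ≤ d * G.length) (N : ℕ) :
    ∃ (S' : Finset (List α)) (T' : List α), N ≤ T'.length ∧ (∀ s ∈ S', s <:+: T') ∧
      ∀ G, IsGreedyOutput S' G → c * T'.length ≤ d * G.length := by
  have hpos : 0 < T.length := List.length_pos_of_ne_nil hT0
  refine ⟨S.image (blow (N + 1)), blow (N + 1) T, ?_, ?_, ?_⟩
  · rw [length_blow]
    nlinarith
  · intro s' hs'
    obtain ⟨s, hs, rfl⟩ := Finset.mem_image.1 hs'
    exact blow_infix _ (hT s hs)
  · intro G h
    obtain ⟨G', hG', rfl⟩ := isGreedyOutput_of_blow (Nat.succ_pos N) h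
    rw [length_blow, length_blow]
    calc c * ((N + 1) * T.length) = (N + 1) * (c * T.length) := by ring
      _ ≤ (N + 1) * (d * G'.length) := Nat.mul_le_mul_left _ (hG G' hG')
      _ = d * ((N + 1) * G'.length) := by ring

end Greedy

end Vale.Agent.P333
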