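import Vale.Agent.P333.Defs

/-!
P333: if no two different words of a factor-free family overlap, then every run of the greedy
algorithm concatenates all of them.
-/

namespace Vale.Agent.P333

universe u

variable {α : Type u}

theorem infix_append_cases {x s t : List α} (h : x <:+: s ++ t) :
    x <:+: s ∨ x <:+: t ∨ ∃ x1 x2, x = x1 ++ x2 ∧ x1 <:+ s ∧ x2 <+: t := by
  obtain ⟨a, b, hab⟩ := h
  rw [List.append_assoc] at hab
  rcases List.append_eq_append_iff.1 hab with ⟨c, h1, h2⟩ | ⟨c, h1, h2⟩
  · -- s = a ++ c, x ++ b = c ++ t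
    rcases List.append_eq_append_iff.1 h2 with ⟨d, h3, h4⟩ | ⟨d, h3, h4⟩
    · left
      exact ⟨a, d, by rw [h1, h3, List.append_assoc]⟩
    · right; right
      exact ⟨c, d, h3, ⟨a, h1.symm⟩, ⟨b, h4.symm⟩⟩
  · right; left
    exact ⟨c, b, by rw [h2, List.append_assoc]⟩

variable [DecidableEq α]

theorem zero_run {F F1 : Finset (List α)} (h : Relation.ReflTransGen GreedyStep F F1) :
    (∀ s ∈ F, ∀ t ∈ F, s <:+: t → s = t) →
    (∀ s ∈ F, ∀ t ∈ F, s ≠ t → ∀ o : List α, o <:+ s → o <+: t → o = []) →
    ∑ s ∈ F, s.length ≤ ∑ s ∈ F1, s.length := by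
  induction h using Relation.ReflTransGen.head_induction_on with
  | refl => intro _ _; exact le_rfl
  | head h1 h2 ih =>
    intro hff hz
    rename_i F F2
    obtain ⟨s, hs, t, ht, hst, o, ho1, ho2, hmax, rfl⟩ := h1
    have ho : o = [] := hz s hs t ht hst o ho1 ho2
    subst ho
    simp only [List.length_nil, List.drop_zero] at ih
    have ht0 : t ≠ [] := fun e => hst (hff t ht s hs (by rw [e]; exact List.nil_infix)).symm
    have hs0 : s ≠ [] := fun e => hst (hff s hs t ht (by rw [e]; exact List.nil_infix))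
    have hsi : s <:+: s ++ t := (List.prefix_append s t).isInfix
    have hti : t <:+: s ++ t := (List.suffix_append s t).isInfix
    have hrest : ∀ y ∈ (F.erase s).erase t, y ∈ F ∧ y ≠ s ∧ y ≠ t := by
      intro y hy
      rw [Finset.mem_erase, Finset.mem_erase] at hy
      exact ⟨hy.2.2, hy.2.1, hy.1⟩
    have hni : ∀ y ∈ (F.erase s).erase t, ¬ (s ++ t <:+: y) := by
      intro y hy hi
      obtain ⟨h1, h2, h3⟩ := hrest y hy
      exact h2 (hff s hs y h1 (hsi.trans hi)).symm
    have hni2 : ∀ y ∈ (F.erase s).erase t, ¬ (y <:+: s ++ t) := by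
      intro y hy hi
      obtain ⟨h1, h2, h3⟩ := hrest y hy
      rcases infix_append_cases hi with h4 | h4 | ⟨x1, x2, h4, h5, h6⟩
      · exact h2 (hff y h1 s hs h4)
      · exact h3 (hff y h1 t ht h4)
      · have h7 := hz s hs y h1 (Ne.symm h2) x1 h5 ⟨x2, h4.symm⟩
        rw [h7, List.nil_append] at h4
        exact h3 (hff y h1 t ht (h4 ▸ h6.isInfix))
    have hnm : s ++ t ∉ (F.erase s).erase t := fun hm => hni _ hm List.infix_rfl
    have hsum : ∑ s ∈ F, s.length = ∑ x ∈ insert (s ++ t) ((F.erase s).erase t), x.length := by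
      rw [Finset.sum_insert hnm, List.length_append, add_assoc,
        Finset.add_sum_erase _ _ (Finset.mem_erase.2 ⟨Ne.symm hst, ht⟩),
        Finset.add_sum_erase _ _ hs]
    rw [hsum]
    refine ih ?_ ?_
    · intro x hx y hy hxy
      rcases Finset.mem_insert.1 hx with rfl | hx
      · rcases Finset.mem_insert.1 hy with rfl | hy
        · rfl
        · exact absurd hxy (hni _ hy)
      · rcases Finset.mem_insert.1 hy with rfl | hy
        · exact absurd hxy (hni2 _ hx)
        · exact hff x (hrest x hx).1 y (hrest y hy).1 hxy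
    · intro x hx y hy hxy o h1 h2
      rcases Finset.mem_insert.1 hx with rfl | hx
      · rcases Finset.mem_insert.1 hy with rfl | hy
        · exact absurd rfl hxy
        · obtain ⟨g1, g2, g3⟩ := hrest y hy
          rcases List.suffix_or_suffix_of_suffix h1 (List.suffix_append s t) with h4 | h4
          · exact hz t ht y g1 (Ne.symm g3) o h4 h2
          · exact absurd (hff t ht y g1 (h4.isInfix.trans h2.isInfix)).symm g3
      · obtain ⟨g1, g2, g3⟩ := hrest x hx
        rcases Finset.mem_insert.1 hy with rfl | hy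
        · rcases List.prefix_or_prefix_of_prefix h2 (List.prefix_append s t) with h4 | h4
          · exact hz x g1 s hs g2 o h1 h4
          · exact absurd (hff s hs x g1 (h4.isInfix.trans h1.isInfix)).symm g2
        · exact hz x g1 y (hrest y hy).1 hxy o h1 h2

end Vale.Agent.P333
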