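import Vale.Agent.P333.CE.Rle
import Vale.Agent.P333.CE.Zero

/-!
P333: a checker on run-length coded families that explores all runs of the greedy algorithm.
-/

namespace Vale.Agent.P333.Rle

open Vale.Agent.P333

/-- concatenation of run lists -/
def app : List (ℕ × ℕ) → List (ℕ × ℕ) → List (ℕ × ℕ)
  | [], B => B
  | a :: A, B =>
    match A with
    | [] =>
      match B with
      | [] => [a]
      | b :: B' => bif Nat.beq a.1 b.1 then (a.1, a.2 + b.2) :: B' else a :: b :: B'
    | _ :: _ => a :: app A B

theorem ex_cons (a : ℕ × ℕ) (A : List (ℕ × ℕ)) : ex (a :: A) = List.replicate a.2 a.1 ++ ex A :=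
  rfl

theorem ex_app : ∀ (A B : List (ℕ × ℕ)), ex (app A B) = ex A ++ ex B
  | [], B => rfl
  | [a], [] => by simp [app, ex]
  | [a], b :: B => by
    rw [app]
    cases h : Nat.beq a.1 b.1
    · simp [ex]
    · have : a.1 = b.1 := by rw [← Nat.beq_eq]; exact h
      simp only [cond_true, ex_cons, this]
      rw [List.replicate_add, List.append_assoc]
      simp [ex]
  | a :: a' :: A, B => by
    have ih := ex_app (a' :: A) B
    rw [app, ex_cons, ih, ex_cons a, List.append_assoc]

/-- drop the first `k` letters -/
def drp : ℕ → List (ℕ × ℕ) → List (ℕ × ℕ)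
  | _, [] => []
  | k, a :: A => bif Nat.ble a.2 k then drp (k - a.2) A else (a.1, a.2 - k) :: A

theorem ex_drp : ∀ (k : ℕ) (A : List (ℕ × ℕ)), ex (drp k A) = (ex A).drop k
  | k, [] => by simp [drp, ex]
  | k, a :: A => by
    rw [drp]
    cases h : Nat.ble a.2 k
    · have h' : ¬ a.2 ≤ k := by rw [← Nat.ble_eq]; simp [h]
      simp only [cond_false, ex_cons]
      rw [List.drop_append_of_le_length (by simp; omega), List.drop_replicate]
    · have h' := le_of_ble h
      simp only [cond_true, ex_cons]
      have e : (List.replicate a.2 a.1).drop k = [] :=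
        List.drop_eq_nil_of_le (by simpa using h')
      rw [ex_drp (k - a.2) A, List.drop_append, e, List.length_replicate, List.nil_append]

/-- take the first `k` letters -/
def tak : ℕ → List (ℕ × ℕ) → List (ℕ × ℕ)
  | _, [] => []
  | k, a :: A => bif Nat.ble a.2 k then a :: tak (k - a.2) A else
      bif Nat.beq k 0 then [] else [(a.1, k)]

theorem ex_tak : ∀ (k : ℕ) (A : List (ℕ × ℕ)), ex (tak k A) = (ex A).take k
  | k, [] => by simp [tak, ex]
  | k, a :: A => by
    rw [tak]
    cases h : Nat.ble a.2 k
    · have h' : ¬ a.2 ≤ k := by rw [← Nat.ble_eq]; simp [h]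
      simp only [cond_false, ex_cons]
      rw [List.take_append_of_le_length (by simp; omega), List.take_replicate,
        min_eq_left (by omega)]
      cases h2 : Nat.beq k 0
      · simp [ex]
      · have : k = 0 := by rw [← Nat.beq_eq]; exact h2
        simp [ex, this]
    · have h' := le_of_ble h
      simp only [cond_true, ex_cons]
      have e : (List.replicate a.2 a.1).take k = List.replicate a.2 a.1 :=
        List.take_of_length_le (by simpa using h')
      rw [ex_tak (k - a.2) A, List.take_append, e, List.length_replicate]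

/-- equality test of run lists -/
def eqr : List (ℕ × ℕ) → List (ℕ × ℕ) → Bool
  | [], B => match B with | [] => true | _ :: _ => false
  | a :: A, B =>
    match B with
    | [] => false
    | b :: B' => Nat.beq a.1 b.1 && (Nat.beq a.2 b.2 && eqr A B')

theorem eqr_sound : ∀ {A B : List (ℕ × ℕ)}, eqr A B = true → A = B
  | [], [], _ => rfl
  | [], _ :: _, h => by simp [eqr] at h
  | _ :: _, [], h => by simp [eqr] at h
  | a :: A, b :: B, h => by
    unfold eqr at h
    simp only [Bool.and_eq_true] at h
    have h1 : a.1 = b.1 := by rw [← Nat.beq_eq]; exact h.1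
    have h2 : a.2 = b.2 := by rw [← Nat.beq_eq]; exact h.2.1
    rw [eqr_sound h.2.2, Prod.ext h1 h2]

/-- `k` is the length of an overlap -/
def real (A B : List (ℕ × ℕ)) (k : ℕ) : Bool :=
  Nat.ble k (len B) && eqr (app (tak (len A - k) A) (tak k B)) A

theorem real_sound {A B : List (ℕ × ℕ)} {k : ℕ} (h : real A B k = true) :
    ∃ o, o <:+ ex A ∧ o <+: ex B ∧ o.length = k := by
  unfold real at h
  simp only [Bool.and_eq_true] at h
  have h1 := le_of_ble h.1
  have h2 := eqr_sound h.2
  have h3 : (ex A).take (len A - k) ++ (ex B).take k = ex A := by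
    rw [← ex_tak, ← ex_tak, ← ex_app, h2]
  exact ⟨(ex B).take k, ⟨_, h3⟩, List.take_prefix _ _, by
    rw [List.length_take, length_ex, min_eq_left h1]⟩

/-- factor test (upper approximation) -/
def inf (A : List (ℕ × ℕ)) : List (ℕ × ℕ) → Bool
  | [] => match A with | [] => true | _ :: _ => false
  | b :: B =>
    (match A with
      | [] => true
      | a :: A' => Nat.beq a.1 b.1 && (Nat.ble a.2 b.2 &&
          (match A' with
            | [] => true
            | _ :: _ => pref A' B))) || inf A B

theorem inf_sound {A : List (ℕ × ℕ)} (hA : nrm A = true) :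
    ∀ {B : List (ℕ × ℕ)}, nrm B = true → ex A <:+: ex B → inf A B = true
  | [], _, h => by
    have h1 : ex A = [] := List.infix_nil.1 h
    cases A with
    | nil => rfl
    | cons a A =>
      have := (nrm_cons hA).1
      obtain ⟨m, hm⟩ : ∃ m, a.2 = m + 1 := ⟨a.2 - 1, by omega⟩
      simp [ex, hm, List.replicate_succ] at h1
  | b :: B, hB, h => by
    obtain ⟨b1, b2, b3, b4⟩ := nrm_cons hB
    unfold inf
    simp only [Bool.or_eq_true]
    obtain ⟨Z, hZ1, hZ2⟩ : ∃ Z, ex A <+: Z ∧ Z <:+ ex (b :: B) := List.infix_iff_prefix_suffix.1 h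
    rcases suffix_run hZ2 with h5 | ⟨r, hr, hrl, rfl⟩
    · right
      exact inf_sound hA b3 (List.infix_iff_prefix_suffix.2 ⟨Z, hZ1, h5⟩)
    · left
      cases A with
      | nil => rfl
      | cons a A =>
        obtain ⟨a1, a2, a3, a4⟩ := nrm_cons hA
        have hc : a.1 = b.1 := head_eq a1 hr hZ1
        simp only [Bool.and_eq_true]
        refine ⟨beq_of hc, ?_⟩
        cases A with
        | nil =>
          simp only [ex, List.append_nil] at hZ1
          rw [← hc] at hZ1 b2
          have := run_le b2 _ _ hZ1
          exact ⟨ble_of (this.trans hrl), rfl⟩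
        | cons a' A =>
          rw [ex_cons a, ← hc] at hZ1
          rw [← hc] at b2
          obtain ⟨h3, h4⟩ := run_eq a2 (a4 (by simp)) b2 _ _ hZ1
          exact ⟨ble_of (h3 ▸ hrl), pref_sound a3 b3 h4⟩

/-- all ways to single out one member of a list -/
def sel {β : Type*} : List β → List (β × List β)
  | [] => []
  | a :: l => (a, l) :: (sel l).map (fun p => (p.1, a :: p.2))

theorem sel_perm {β : Type*} : ∀ {l : List β} {p : β × List β}, p ∈ sel l → l.Perm (p.1 :: p.2)
  | [], p, h => by simp [sel] at h
  | a :: l, p, h => by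
    rw [sel, List.mem_cons, List.mem_map] at h
    rcases h with rfl | ⟨q, hq, rfl⟩
    · exact List.Perm.refl _
    · exact ((sel_perm hq).cons a).trans (List.Perm.swap _ _ _)

theorem exists_sel {β : Type*} : ∀ {l : List β} {b : β}, b ∈ l → ∃ r, (b, r) ∈ sel l
  | [], b, h => by simp at h
  | a :: l, b, h => by
    rcases List.mem_cons.1 h with rfl | h
    · exact ⟨l, by simp [sel]⟩
    · obtain ⟨r, hr⟩ := exists_sel h
      exact ⟨a :: r, by rw [sel, List.mem_cons]; exact Or.inr (List.mem_map.2 ⟨_, hr, rfl⟩)⟩

/-- the family of words coded by a list of run lists -/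
def fam (L : List (List (ℕ × ℕ))) : Finset (List ℕ) := (L.map ex).toFinset

/-- all members are normal, different members are no prefixes of each other -/
def good : List (List (ℕ × ℕ)) → Bool
  | [] => true
  | A :: L => nrm A && (L.all (fun B => !(pref A B && pref B A)) && good L)

theorem good_spec : ∀ {L : List (List (ℕ × ℕ))}, good L = true →
    (∀ A ∈ L, nrm A = true) ∧ (L.map ex).Nodup
  | [], _ => by simp
  | A :: L, h => by
    unfold good at h
    simp only [Bool.and_eq_true, List.all_eq_true] at h
    obtain ⟨h1, h2, h3⟩ := h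
    obtain ⟨h4, h5⟩ := good_spec h3
    refine ⟨fun B hB => ?_, ?_⟩
    · rcases List.mem_cons.1 hB with rfl | hB
      · exact h1
      · exact h4 B hB
    · rw [List.map_cons, List.nodup_cons]
      refine ⟨fun hm => ?_, h5⟩
      obtain ⟨B, hB, he⟩ := List.mem_map.1 hm
      have h6 := pref_sound (A := A) (B := B) h1 (h4 B hB) (by rw [he])
      have h7 := pref_sound (A := B) (B := A) (h4 B hB) h1 (by rw [he])
      have h8 := h2 B hB
      rw [h6, h7] at h8
      simp at h8

/-- no member is a factor of another one -/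
def ffree (L : List (List (ℕ × ℕ))) : Bool :=
  (sel L).all (fun p => p.2.all (fun B => !(inf p.1 B)))

theorem two_mem {L : List (List (ℕ × ℕ))} {s t : List ℕ} (hs : s ∈ fam L) (ht : t ∈ fam L)
    (hne : s ≠ t) : ∃ A B r, A ∈ L ∧ B ∈ L ∧ (A, r) ∈ sel L ∧ B ∈ r ∧ ex A = s ∧ ex B = t := by
  obtain ⟨A, hA, rfl⟩ : ∃ A ∈ L, ex A = s := by simpa [fam] using hs
  obtain ⟨B, hB, rfl⟩ : ∃ B ∈ L, ex B = t := by simpa [fam] using ht
  obtain ⟨r, hr⟩ := exists_sel hA
  have hBr : B ∈ r := by
    rcases List.mem_cons.1 ((sel_perm hr).subset hB) with h3 | h3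
    · exact absurd (by rw [h3]) hne
    · exact h3
  exact ⟨A, B, r, hA, hB, hr, hBr, rfl, rfl⟩

theorem ffree_spec {L : List (List (ℕ × ℕ))} (hg : good L = true) (hf : ffree L = true) :
    ∀ s ∈ fam L, ∀ t ∈ fam L, s <:+: t → s = t := by
  intro s hs t ht hst
  by_contra hne
  obtain ⟨A, B, r, hA, hB, hr, hBr, rfl, rfl⟩ := two_mem hs ht hne
  obtain ⟨hn, hd⟩ := good_spec hg
  unfold ffree at hf
  simp only [List.all_eq_true] at hf
  have h1 := hf _ hr B hBr
  rw [inf_sound (hn A hA) (hn B hB) hst] at h1
  simp at h1

theorem reduceFamily_fam {L : List (List (ℕ × ℕ))} (hg : good L = true) (hf : ffree L = true) :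
    reduceFamily (fam L) = fam L := by
  unfold reduceFamily
  rw [Finset.filter_eq_self]
  intro s hs t ht hst
  exact ffree_spec hg hf s hs t ht hst

/-- no overlaps at all -/
def zov (L : List (List (ℕ × ℕ))) : Bool :=
  (sel L).all (fun p => p.2.all (fun B => Nat.beq (ovb p.1 B) 0))

theorem zov_spec {L : List (List (ℕ × ℕ))} (hg : good L = true) (hf : zov L = true) :
    ∀ s ∈ fam L, ∀ t ∈ fam L, s ≠ t → ∀ o : List ℕ, o <:+ s → o <+: t → o = [] := by
  intro s hs t ht hne o ho1 ho2
  obtain ⟨A, B, r, hA, hB, hr, hBr, rfl, rfl⟩ := two_mem hs ht hne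
  obtain ⟨hn, hd⟩ := good_spec hg
  unfold zov at hf
  simp only [List.all_eq_true] at hf
  have h1 := hf _ hr B hBr
  rw [Nat.beq_eq] at h1
  have h2 := ovb_sound (hn A hA) (hn B hB) ho1 ho2
  rw [h1] at h2
  exact List.eq_nil_of_length_eq_zero (Nat.le_zero.1 h2)

/-- total length -/
def tot : List (List (ℕ × ℕ)) → ℕ
  | [] => 0
  | A :: L => len A + tot L

theorem tot_eq {L : List (List (ℕ × ℕ))} (hd : (L.map ex).Nodup) :
    ∑ s ∈ fam L, s.length = tot L := by
  unfold fam
  rw [List.sum_toFinset _ hd, List.map_map]
  clear hd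
  induction L with
  | nil => rfl
  | cons A L ih => rw [List.map_cons, List.sum_cons, ih, tot, Function.comp_apply, length_ex]

/-- all runs of greedy on `L` end with a word of length at least `m`;
`K` lists the positive lengths of the longest overlaps of the successive steps -/
def runs (m : ℕ) : List ℕ → List (List (ℕ × ℕ)) → Bool
  | [], L => good L && (ffree L && (zov L && Nat.ble m (tot L)))
  | k :: K, L => good L && (match L with
      | [] => false
      | _ :: L' => match L' with
        | [] => false
        | _ :: _ => (sel L).any (fun p => (sel p.2).any (fun q => real p.1 q.1 k)) &&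
            (sel L).all (fun p => (sel p.2).all (fun q =>
              Nat.blt (ovb p.1 q.1) k ||
                (Nat.beq (ovb p.1 q.1) k && runs m K (app p.1 (drp k q.1) :: q.2)))))

theorem fam_perm {L L' : List (List (ℕ × ℕ))} (h : L.Perm L') : fam L = fam L' := by
  unfold fam
  ext x
  simp only [List.mem_toFinset]
  exact (h.map ex).mem_iff

theorem runs_sound (m : ℕ) : ∀ {K : List ℕ} {L : List (List (ℕ × ℕ))}, runs m K L = true →
    ∀ G, Relation.ReflTransGen GreedyStep (fam L) {G} → m ≤ G.length
  | [], L, h, G, hG => by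
    unfold runs at h
    simp only [Bool.and_eq_true] at h
    obtain ⟨h1, h2, h3, h4⟩ := h
    have h5 := zero_run hG (ffree_spec h1 h2) (zov_spec h1 h3)
    rw [tot_eq (good_spec h1).2, Finset.sum_singleton] at h5
    exact (le_of_ble h4).trans h5
  | k :: K, [], h, G, hG => by
    unfold runs at h
    simp at h
  | k :: K, [A], h, G, hG => by
    unfold runs at h
    simp at h
  | k :: K, A1 :: A2 :: L0, h, G, hG => by
    rw [runs] at h
    simp only [Bool.and_eq_true, List.any_eq_true, List.all_eq_true] at h
    obtain ⟨hgood, ⟨p0, hp0, q0, hq0, hreal⟩, hall⟩ := h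
    set L := A1 :: A2 :: L0 with hL
    obtain ⟨hn, hd⟩ := good_spec hgood
    -- two different members
    have htwo : ∀ G', fam L ≠ {G'} := by
      intro G' he
      have h1 : ex A1 ∈ fam L := by simp [fam, hL]
      have h2 : ex A2 ∈ fam L := by simp [fam, hL]
      rw [he, Finset.mem_singleton] at h1 h2
      rw [hL, List.map_cons, List.map_cons, List.nodup_cons] at hd
      exact hd.1 (by rw [h1, h2]; exact List.mem_cons_self)
    rcases Relation.ReflTransGen.cases_head hG with h1 | ⟨F', h1, h2⟩
    · exact absurd h1 (htwo G)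
    · obtain ⟨s, hs, t, ht, hst, o, ho1, ho2, hmax, rfl⟩ := h1
      obtain ⟨A, hA, rfl⟩ : ∃ A ∈ L, ex A = s := by simpa [fam] using hs
      obtain ⟨B, hB, rfl⟩ : ∃ B ∈ L, ex B = t := by simpa [fam] using ht
      obtain ⟨r, hr⟩ := exists_sel hA
      have hp1 := sel_perm hr
      have hBr : B ∈ r := by
        rcases List.mem_cons.1 (hp1.subset hB) with h3 | h3
        · exact absurd (by rw [h3]) hst
        · exact h3
      obtain ⟨r', hr'⟩ := exists_sel hBr
      have hp2 := sel_perm hr'
      have hp : L.Perm (A :: B :: r') := hp1.trans (hp2.cons A)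
      -- the real overlap
      obtain ⟨o0, g1, g2, g3⟩ := real_sound hreal
      have hq1 := sel_perm hp0
      have hq2 := sel_perm hq0
      have hqq : L.Perm (p0.1 :: q0.1 :: q0.2) := hq1.trans (hq2.cons _)
      have hd0 : ((p0.1 :: q0.1 :: q0.2).map ex).Nodup := (hqq.map ex).nodup_iff.1 hd
      have hne0 : ex p0.1 ≠ ex q0.1 := by
        intro e
        rw [List.map_cons, List.map_cons, List.nodup_cons] at hd0
        exact hd0.1 (by rw [e]; exact List.mem_cons_self)
      have hk1 : k ≤ o.length := by
        rw [← g3]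
        refine hmax _ ?_ _ ?_ hne0 o0 g1 g2
        · rw [fam_perm hqq]; simp [fam]
        · rw [fam_perm hqq]; simp [fam]
      have hk2 : o.length ≤ ovb A B := ovb_sound (hn A hA) (hn B hB) ho1 ho2
      have hc := hall _ hr _ hr'
      simp only [Bool.or_eq_true, Bool.and_eq_true] at hc
      rcases hc with hc | ⟨hc1, hc2⟩
      · have : ovb A B < k := le_of_ble hc
        omega
      · have hc1' : ovb A B = k := by rw [← Nat.beq_eq]; exact hc1
        have hok : o.length = k := by omega
        refine runs_sound m hc2 G ?_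
        have hd1 : ((A :: B :: r').map ex).Nodup := (hp.map ex).nodup_iff.1 hd
        have he : insert (ex A ++ (ex B).drop o.length) (((fam L).erase (ex A)).erase (ex B)) =
            fam (app A (drp k B) :: r') := by
          rw [fam_perm hp]
          simp only [List.map_cons, List.nodup_cons, List.mem_cons, not_or] at hd1
          ext x
          simp only [fam, List.map_cons, List.toFinset_cons, ex_app, ex_drp, hok,
            Finset.mem_insert, Finset.mem_erase, List.mem_toFinset]
          constructor
          · rintro (h5 | ⟨h5, h6, h7 | h7 | h7⟩)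
            · exact Or.inl h5
            · exact absurd h7 h6
            · exact absurd h7 h5
            · exact Or.inr h7
          · rintro (h5 | h5)
            · exact Or.inl h5
            · refine Or.inr ⟨?_, ?_, Or.inr (Or.inr h5)⟩
              · rintro rfl; exact hd1.2.1 h5
              · rintro rfl; exact hd1.1.2 h5
        rw [he] at h2
        exact h2

/-- `T` contains the members of `L`, at the positions of the list `P` -/
def covers (T : List (ℕ × ℕ)) : List (List (ℕ × ℕ)) → List ℕ → Bool
  | [], _ => true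
  | A :: L, P => match P with
    | [] => false
    | p :: P' => eqr (app (tak p T) (app A (drp (p + len A) T))) T && covers T L P'

theorem covers_sound {T : List (ℕ × ℕ)} : ∀ {L : List (List (ℕ × ℕ))} {P : List ℕ},
    covers T L P = true → ∀ A ∈ L, ex A <:+: ex T
  | [], _, _, A, h => by simp at h
  | _ :: _, [], h, _, _ => by simp [covers] at h
  | B :: L, p :: P, h, A, hA => by
    unfold covers at h
    simp only [Bool.and_eq_true] at h
    rcases List.mem_cons.1 hA with rfl | hA
    · have h1 := eqr_sound h.1
      refine ⟨ex (tak p T), ex (drp (p + len A) T), ?_⟩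
      conv_rhs => rw [← h1]
      rw [ex_app, ex_app, List.append_assoc]
    · exact covers_sound h.2 A hA

/-- the complete check -/
def check (m : ℕ) (K : List ℕ) (L : List (List (ℕ × ℕ))) (T : List (ℕ × ℕ)) (P : List ℕ) : Bool :=
  covers T L P && (ffree L && (good L && runs m K L))

theorem check_sound {m : ℕ} {K : List ℕ} {L : List (List (ℕ × ℕ))} {T : List (ℕ × ℕ)}
    {P : List ℕ} (h : check m K L T P = true) :
    (∀ s ∈ fam L, s <:+: ex T) ∧ ∀ G, IsGreedyOutput (fam L) G → m ≤ G.length := by
  unfold check at h
  simp only [Bool.and_eq_true] at h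
  obtain ⟨h1, h2, h3, h4⟩ := h
  refine ⟨?_, ?_⟩
  · intro s hs
    obtain ⟨A, hA, rfl⟩ : ∃ A ∈ L, ex A = s := by simpa [fam] using hs
    exact covers_sound h1 A hA
  · intro G hG
    unfold IsGreedyOutput at hG
    rw [reduceFamily_fam h3 h2] at hG
    exact runs_sound m h4 G hG

end Vale.Agent.P333.Rle
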