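import Vale.Agent.P333.CE.Step

/-!
P333: the functions of the checker in terms of the recursor of lists (faster in the kernel).
-/

namespace Vale.Agent.P333.Rle

/-- case distinction -/
noncomputable abbrev br (f t b : Bool) : Bool := Bool.rec (motive := fun _ => Bool) f t b

/-- `pref` -/
noncomputable def prefF (A : List (ℕ × ℕ)) : List (ℕ × ℕ) → Bool :=
  List.rec (motive := fun _ => List (ℕ × ℕ) → Bool) (fun _ => true)
    (fun a A' ih B => List.rec (motive := fun _ => Bool) false
      (fun b B' _ => Bool.rec false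
        (List.rec (motive := fun _ => Bool) (Nat.ble a.2 b.2)
          (fun _ _ _ => Bool.rec false (ih B') (Nat.beq a.2 b.2)) A')
        (Nat.beq a.1 b.1)) B) A

theorem prefF_eq : ∀ (A B : List (ℕ × ℕ)), prefF A B = pref A B
  | [], _ => rfl
  | a :: A, [] => rfl
  | [a], b :: B => by
    show br false (Nat.ble a.2 b.2) (Nat.beq a.1 b.1) = _
    rw [pref]
    cases Nat.beq a.1 b.1 <;> rfl
  | a :: a' :: A, b :: B => by
    have ih := prefF_eq (a' :: A) B
    show br false (br false (prefF (a' :: A) B) (Nat.beq a.2 b.2))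
      (Nat.beq a.1 b.1) = _
    rw [pref, ih]
    cases Nat.beq a.1 b.1 <;> cases Nat.beq a.2 b.2 <;> rfl

/-- the test `ovb A B < k`, for `B = b :: B'` -/
noncomputable def ltF (k : ℕ) (b : ℕ × ℕ) (B' : List (ℕ × ℕ)) (A : List (ℕ × ℕ)) : Bool :=
  List.rec (motive := fun _ => Bool) (Nat.ble 1 k)
    (fun a A' ih => Bool.rec ih
      (List.rec (motive := fun _ => Bool)
        (Bool.rec (Nat.blt b.2 k) (Nat.blt a.2 k) (Nat.ble a.2 b.2))
        (fun _ _ _ => Bool.rec ih
          (Bool.rec ih (Nat.blt (b.2 + len A') k) (prefF A' B')) (Nat.ble b.2 a.2)) A')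
      (Nat.beq a.1 b.1)) A

theorem ltF_eq (k : ℕ) (b : ℕ × ℕ) (B' : List (ℕ × ℕ)) : ∀ (A : List (ℕ × ℕ)),
    ltF k b B' A = Nat.blt (ovb A (b :: B')) k
  | [] => rfl
  | [a] => by
    show br (Nat.ble 1 k) (br (Nat.blt b.2 k) (Nat.blt a.2 k) (Nat.ble a.2 b.2))
      (Nat.beq a.1 b.1) = _
    rw [ovb]
    cases Nat.beq a.1 b.1
    · rfl
    · cases Nat.ble a.2 b.2 <;> rfl
  | a :: a' :: A => by
    have ih := ltF_eq k b B' (a' :: A)
    show br (ltF k b B' (a' :: A)) (br (ltF k b B' (a' :: A))
      (br (ltF k b B' (a' :: A)) (Nat.blt (b.2 + len (a' :: A)) k)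
        (prefF (a' :: A) B')) (Nat.ble b.2 a.2)) (Nat.beq a.1 b.1) = _
    rw [ovb, prefF_eq, ih]
    cases Nat.beq a.1 b.1
    · rfl
    · cases h : Nat.ble b.2 a.2 <;> cases h2 : pref (a' :: A) B' <;> rfl

/-- `lt2` -/
noncomputable def lt2F (k : ℕ) (A B : List (ℕ × ℕ)) : Bool :=
  List.rec (motive := fun _ => Bool) false
    (fun b B' _ => Bool.rec false
      (List.rec (motive := fun _ => Bool) false (fun a A' _ => ltF k a A' B) A)
      (ltF k b B' A)) B

theorem lt2F_sound {k : ℕ} {A B : List (ℕ × ℕ)} (h : lt2F k A B = true) : lt2 k A B = true := by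
  cases B with
  | nil => exact absurd h (by simp [lt2F])
  | cons b B =>
    cases A with
    | nil =>
      exfalso
      change Bool.rec false false (ltF k b B []) = true at h
      cases h1 : ltF k b B [] <;> rw [h1] at h <;> exact absurd h (by simp)
    | cons a A =>
      change Bool.rec false (ltF k a A (b :: B)) (ltF k b B (a :: A)) = true at h
      unfold lt2
      rw [← ltF_eq, ← ltF_eq]
      cases h1 : ltF k b B (a :: A)
      · rw [h1] at h; exact absurd h (by simp)
      · rw [h1] at h
        simpa using h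

/-- test all members -/
noncomputable def allF {β : Type} (f : β → Bool) (L : List β) : Bool :=
  List.rec (motive := fun _ => Bool) true (fun a _ ih => Bool.rec false ih (f a)) L

theorem allF_cons {β : Type} (f : β → Bool) (a : β) (L : List β) :
    allF f (a :: L) = Bool.rec false (allF f L) (f a) := rfl

theorem allF_sound {β : Type} {f g : β → Bool} (hfg : ∀ b, f b = true → g b = true) :
    ∀ {L : List β}, allF f L = true → L.all g = true
  | [], _ => rfl
  | a :: L, h => by
    rw [allF_cons] at h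
    rw [List.all_cons, Bool.and_eq_true]
    cases h1 : f a
    · rw [h1] at h; exact absurd h (by simp)
    · rw [h1] at h
      exact ⟨hfg a h1, allF_sound hfg h⟩

/-- `allp` -/
noncomputable def allpF (k : ℕ) (L : List (List (ℕ × ℕ))) : Bool :=
  List.rec (motive := fun _ => Bool) true
    (fun A L' ih => Bool.rec false ih (allF (lt2F k A) L')) L

theorem allpF_sound {k : ℕ} : ∀ {L : List (List (ℕ × ℕ))}, allpF k L = true → allp k L = true
  | [], _ => rfl
  | A :: L, h => by
    change Bool.rec false (allpF k L) (allF (lt2F k A) L) = true at h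
    unfold allp
    rw [Bool.and_eq_true]
    cases h1 : allF (lt2F k A) L
    · rw [h1] at h; exact absurd h (by simp)
    · rw [h1] at h
      exact ⟨allF_sound (fun b hb => lt2F_sound hb) h1, allpF_sound h⟩

/-- the expensive part of `okS` -/
noncomputable def pairsF (k : ℕ) (A B : List (ℕ × ℕ)) (R : List (List (ℕ × ℕ))) : Bool :=
  Bool.rec false (Bool.rec false (allpF k R) (allF (lt2F k B) R)) (allF (lt2F k A) R)

/-- the cheap part of `okS` -/
def okC (k : ℕ) (A B M : List (ℕ × ℕ)) (R : List (List (ℕ × ℕ))) : Bool :=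
  real A B k && (Nat.beq (ovb A B) k && (Nat.blt (ovb B A) k &&
      (eqr (app A (drp k B)) M && (nrm M && R.all (fun C => !(pref M C && pref C M))))))

theorem okS_of {k : ℕ} {A B M : List (ℕ × ℕ)} {R : List (List (ℕ × ℕ))}
    (h1 : pairsF k A B R = true) (h2 : okC k A B M R = true) : okS k A B M R = true := by
  unfold okC at h2
  unfold okS
  simp only [Bool.and_eq_true] at h2 ⊢
  obtain ⟨g1, g2, g3, g4, g5, g6⟩ := h2
  unfold pairsF at h1
  cases e1 : allF (lt2F k A) R
  · rw [e1] at h1; exact absurd h1 (by simp)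
  · rw [e1] at h1
    cases e2 : allF (lt2F k B) R
    · rw [e2] at h1; exact absurd h1 (by simp)
    · rw [e2] at h1
      exact ⟨g1, g2, g3, allF_sound (fun b hb => lt2F_sound hb) e1,
        allF_sound (fun b hb => lt2F_sound hb) e2, allpF_sound h1, g4, g5, g6⟩

end Vale.Agent.P333.Rle
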