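import Vale.Agent.P333.CE.Val

/-!
# Forced runs of the greedy algorithm

If in every state the longest overlap is attained by exactly one ordered pair, then the run of the
greedy algorithm does not depend on tie-breaking.
-/

namespace Vale.Agent.P333.CE

open Vale.Agent.P333

/-- every entry of `r` against `p`, both orders -/
def against (k : Nat) (p : Nat × Nat) (r : List (Nat × Nat)) : Bool :=
  r.all (fun x => pairOK k p x && pairOK k x p)

theorem forall₂_mem {l : List W} {c : List (Nat × Nat)} (hl : List.Forall₂ Coded l c) :
    ∀ q ∈ l, ∃ cq ∈ c, Coded q cq := by
  intro q hq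
  obtain ⟨i, hi, rfl⟩ := List.getElem_of_mem hq
  have hlen := hl.length_eq
  exact ⟨(c)[i], List.getElem_mem (by omega), (List.forall₂_iff_get.1 hl).2 i hi (by omega)⟩

theorem against_sound {k : Nat} {p : W} {cp : Nat × Nat} {l : List W} {c : List (Nat × Nat)}
    (hp : Coded p cp) (hl : List.Forall₂ Coded l c) (h : against k cp c = true) :
    ∀ q ∈ l, ∀ o : W, ((o <:+ p ∧ o <+: q) ∨ (o <:+ q ∧ o <+: p)) → o.length ≤ k := by
  intro q hq o ho
  obtain ⟨cq, hcq, hq'⟩ := forall₂_mem hl q hq
  unfold against at h
  rw [List.all_eq_true] at h
  have h1 := h cq hcq
  rw [Bool.and_eq_true] at h1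
  rcases ho with ⟨h2, h3⟩ | ⟨h2, h3⟩
  · exact pairOK_sound hp hq' h1.1 o h2 h3
  · exact pairOK_sound hq' hp h1.2 o h2 h3

/-- one forced move: entry `i` and then entry `j` of the rest are merged along an overlap of
length `k ≥ 1`, and every other ordered pair has only overlaps shorter than `k` -/
def moveF (c : List (Nat × Nat)) (m : Nat × Nat × Nat) : Option (List (Nat × Nat)) :=
  match pull m.1 c with
  | none => none
  | some (p, r) => match pull m.2.1 r with
    | none => none
    | some (q, r') =>
      cond (distinctC c && (hasOv m.2.2 p q && (pairOK m.2.2 p q && (Nat.ble 1 m.2.2 &&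
        (pairOK (m.2.2 - 1) q p && (against (m.2.2 - 1) p r' && (against (m.2.2 - 1) q r' &&
          allPairs (m.2.2 - 1) r')))))))
        (some (mergeC m.2.2 p q :: r')) none

theorem moveF_sound {l : List W} {c : List (Nat × Nat)} {m : Nat × Nat × Nat}
    {c' : List (Nat × Nat)} (h : List.Forall₂ Coded l c) (hm : moveF c m = some c') :
    ∃ l' : List W, List.Forall₂ Coded l' c' ∧ GreedyStep l.toFinset l'.toFinset ∧
      (∀ F' : Finset W, GreedyStep l.toFinset F' → F' = l'.toFinset) ∧
      ∀ G : W, l.toFinset ≠ {G} := by
  unfold moveF at hm
  cases hpq : pull m.1 c with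
  | none => rw [hpq] at hm; simp at hm
  | some a =>
    obtain ⟨cp, cr⟩ := a
    rw [hpq] at hm
    simp only at hm
    cases hqq : pull m.2.1 cr with
    | none => rw [hqq] at hm; simp at hm
    | some b =>
      obtain ⟨cq, cr'⟩ := b
      rw [hqq] at hm
      simp only at hm
      by_cases hb : (distinctC c && (hasOv m.2.2 cp cq && (pairOK m.2.2 cp cq && (Nat.ble 1 m.2.2 &&
        (pairOK (m.2.2 - 1) cq cp && (against (m.2.2 - 1) cp cr' && (against (m.2.2 - 1) cq cr' &&
          allPairs (m.2.2 - 1) cr'))))))) = true
      · rw [hb, cond_true, Option.some.injEq] at hm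
        simp only [Bool.and_eq_true] at hb
        obtain ⟨hd, ho, hpo, hk1, hqp, hap, haq, hall⟩ := hb
        have hk1 := Nat.le_of_ble_eq_true hk1
        obtain ⟨p, r, hp1, hp2, hp3⟩ := pull_forall₂ h hpq
        obtain ⟨q, r', hq1, hq2, hq3⟩ := pull_forall₂ hp3 hqq
        have hperm : l.Perm (p :: q :: r') :=
          (pull_perm hp1).trans ((pull_perm hq1).cons p)
        have hnd : (p :: q :: r').Nodup := hperm.nodup_iff.1 (distinctC_sound h hd)
        have hpmem : p ∈ l := hperm.mem_iff.2 (by simp)
        have hqmem : q ∈ l := hperm.mem_iff.2 (by simp)
        have hpq' : p ≠ q := by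
          intro he; subst he; simp at hnd
        obtain ⟨o, hol, ho1, ho2⟩ := hasOv_sound hp2 hq2 ho
        -- every other pair has shorter overlaps
        have hother : ∀ s ∈ l, ∀ t ∈ l, s ≠ t → ¬ (s = p ∧ t = q) → ∀ o' : W, o' <:+ s →
            o' <+: t → o'.length ≤ m.2.2 - 1 := by
          intro s hs t ht hst hne o' h1 h2
          have hs := hperm.mem_iff.1 hs
          have ht := hperm.mem_iff.1 ht
          simp only [List.mem_cons] at hs ht
          rcases hs with rfl | rfl | hs
          · rcases ht with rfl | rfl | ht
            · exact absurd rfl hst
            · exact absurd ⟨rfl, rfl⟩ hne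
            · exact against_sound hp2 hq3 hap t ht o' (Or.inl ⟨h1, h2⟩)
          · rcases ht with rfl | rfl | ht
            · exact pairOK_sound hq2 hp2 hqp o' h1 h2
            · exact absurd rfl hst
            · exact against_sound hq2 hq3 haq t ht o' (Or.inl ⟨h1, h2⟩)
          · rcases ht with rfl | rfl | ht
            · exact against_sound hp2 hq3 hap s hs o' (Or.inr ⟨h1, h2⟩)
            · exact against_sound hq2 hq3 haq s hs o' (Or.inr ⟨h1, h2⟩)
            · exact allPairs_sound hq3 hall s hs t ht hst o' h1 h2
        have hpair : ∀ o' : W, o' <:+ p → o' <+: q → o'.length ≤ m.2.2 :=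
          fun o' h1 h2 => pairOK_sound hp2 hq2 hpo o' h1 h2
        have hset : insert (p ++ q.drop m.2.2) ((l.toFinset.erase p).erase q) =
            ((p ++ q.drop m.2.2) :: r').toFinset := by
          rw [List.toFinset_eq_of_perm _ _ hperm, List.toFinset_cons, List.toFinset_cons,
            List.toFinset_cons]
          rw [List.nodup_cons, List.nodup_cons] at hnd
          obtain ⟨n1, n2, n3⟩ := hnd
          congr 1
          have e1 : (insert p (insert q r'.toFinset)).erase p = insert q r'.toFinset := by
            apply Finset.erase_insert
            simp only [Finset.mem_insert, List.mem_toFinset]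
            simpa using n1
          rw [e1]
          apply Finset.erase_insert
          simpa using n2
        refine ⟨(p ++ q.drop m.2.2) :: r', ?_, ?_, ?_, ?_⟩
        · rw [← hm]
          exact List.Forall₂.cons (mergeC_sound hp2 hq2) hq3
        · refine ⟨p, List.mem_toFinset.2 hpmem, q, List.mem_toFinset.2 hqmem, hpq', o, ho1, ho2,
            ?_, ?_⟩
          · intro s' hs' t' ht' hst o' h1 h2
            rw [hol]
            by_cases hne : s' = p ∧ t' = q
            · rw [hne.1] at h1
              rw [hne.2] at h2
              exact hpair o' h1 h2
            · have := hother s' (List.mem_toFinset.1 hs') t' (List.mem_toFinset.1 ht')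
                hst hne o' h1 h2
              omega
          · rw [hol]
            exact hset.symm
        · rintro F' ⟨s, hs, t, ht, hst, u, hu1, hu2, hmax, hF⟩
          have hku : m.2.2 ≤ u.length := by
            rw [← hol]
            exact hmax p (List.mem_toFinset.2 hpmem) q (List.mem_toFinset.2 hqmem) hpq' o ho1 ho2
          have hsame : s = p ∧ t = q := by
            by_contra hne
            have := hother s (List.mem_toFinset.1 hs) t (List.mem_toFinset.1 ht) hst hne u hu1 hu2
            omega
          obtain ⟨rfl, rfl⟩ := hsame
          have hle := hpair u hu1 hu2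
          have he : u.length = m.2.2 := by omega
          rw [hF, he, hset]
        · intro G hG
          apply hpq'
          have h1 : p ∈ l.toFinset := List.mem_toFinset.2 hpmem
          have h2 : q ∈ l.toFinset := List.mem_toFinset.2 hqmem
          rw [hG, Finset.mem_singleton] at h1 h2
          rw [h1, h2]
      · rw [Bool.not_eq_true] at hb
        rw [hb] at hm
        simp at hm

/-- no greedy step starts from one word -/
theorem no_step_singleton {G : W} {F : Finset W} : ¬ GreedyStep ({G} : Finset W) F := by
  rintro ⟨s, hs, t, ht, hst, -⟩
  rw [Finset.mem_singleton] at hs ht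
  exact hst (by rw [hs, ht])

theorem stay_singleton {G : W} {F : Finset W}
    (h : Relation.ReflTransGen GreedyStep ({G} : Finset W) F) : F = {G} := by
  rcases Relation.ReflTransGen.cases_head h with h | ⟨F1, h1, _⟩
  · exact h.symm
  · exact absurd h1 no_step_singleton

/-- two words without overlaps: every way to finish gives a word of length the sum -/
theorem last_sound {l : List W} {x y : Nat × Nat} (h : List.Forall₂ Coded l [x, y])
    (hd : distinctC [x, y] = true) (h1 : pairOK 0 x y = true) (h2 : pairOK 0 y x = true) :
    (∃ G : W, Relation.ReflTransGen GreedyStep l.toFinset {G}) ∧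
      ∀ G : W, Relation.ReflTransGen GreedyStep l.toFinset {G} → G.length = x.1 + y.1 := by
  have hnd := distinctC_sound h hd
  cases h with
  | @cons p _ l' _ hp hl' =>
    cases hl' with
    | @cons q _ l'' _ hq hl'' =>
      cases hl''
      have hpq : p ≠ q := by
        intro he; subst he; simp at hnd
      have z1 : ∀ o : W, o <:+ p → o <+: q → o.length = 0 :=
        fun o a b => Nat.le_zero.1 (pairOK_sound hp hq h1 o a b)
      have z2 : ∀ o : W, o <:+ q → o <+: p → o.length = 0 :=
        fun o a b => Nat.le_zero.1 (pairOK_sound hq hp h2 o a b)
      have hmemp : p ∈ [p, q].toFinset := by simp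
      have hmemq : q ∈ [p, q].toFinset := by simp
      have hall : ∀ s ∈ [p, q].toFinset, ∀ t ∈ [p, q].toFinset, s ≠ t → ∀ o : W, o <:+ s →
          o <+: t → o.length = 0 := by
        intro s hs t ht hst o a b
        simp only [List.mem_toFinset, List.mem_cons, List.not_mem_nil, or_false] at hs ht
        rcases hs with rfl | rfl
        · rcases ht with rfl | rfl
          · exact absurd rfl hst
          · exact z1 o a b
        · rcases ht with rfl | rfl
          · exact z2 o a b
          · exact absurd rfl hst
      constructor
      · refine ⟨p ++ q, Relation.ReflTransGen.single ⟨p, hmemp, q, hmemq, hpq, [],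
          List.nil_suffix, List.nil_prefix, ?_, ?_⟩⟩
        · intro s hs t ht hst o a b
          rw [hall s hs t ht hst o a b]
          exact Nat.zero_le _
        · ext z
          simp only [List.length_nil, List.drop_zero, Finset.mem_singleton, Finset.mem_insert,
            Finset.mem_erase, List.mem_toFinset, List.mem_cons, List.not_mem_nil, or_false]
          constructor
          · intro hz; exact Or.inl hz
          · rintro (hz | ⟨a, b, c⟩)
            · exact hz
            · rcases c with c | c
              · exact absurd c b
              · exact absurd c a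
      · intro G hG
        rcases Relation.ReflTransGen.cases_head hG with hG | ⟨F1, hs1, hG1⟩
        · exfalso
          apply hpq
          rw [hG, Finset.mem_singleton] at hmemp hmemq
          rw [hmemp, hmemq]
        · obtain ⟨s, hs, t, ht, hst, u, hu1, hu2, hmax, hF⟩ := hs1
          have hu := hall s hs t ht hst u hu1 hu2
          have hlen : (s ++ t.drop u.length).length = x.1 + y.1 := by
            rw [hu]
            simp only [List.mem_toFinset, List.mem_cons, List.not_mem_nil, or_false] at hs ht
            rcases hs with rfl | rfl
            · rcases ht with rfl | rfl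
              · exact absurd rfl hst
              · simp [hp.1, hq.1]
            · rcases ht with rfl | rfl
              · simp [hp.1, hq.1]; omega
              · exact absurd rfl hst
          have hFs : F1 = {s ++ t.drop u.length} := by
            rw [hF]
            ext z
            simp only [Finset.mem_insert, Finset.mem_erase, Finset.mem_singleton,
              List.mem_toFinset, List.mem_cons, List.not_mem_nil, or_false]
            constructor
            · rintro (hz | ⟨a, b, c⟩)
              · exact hz
              · exfalso
                simp only [List.mem_toFinset, List.mem_cons, List.not_mem_nil, or_false] at hs ht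
                rcases hs with rfl | rfl
                · rcases ht with rfl | rfl
                  · exact hst rfl
                  · rcases c with c | c
                    · exact b c
                    · exact a c
                · rcases ht with rfl | rfl
                  · rcases c with c | c
                    · exact a c
                    · exact b c
                  · exact hst rfl
            · intro hz; exact Or.inl hz
          rw [hFs] at hG1
          have h3 := stay_singleton hG1
          rw [Finset.singleton_inj] at h3
          rw [h3, hlen]

/-- a whole forced run, down to two words without overlaps; the value is the total length -/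
def runF : List (Nat × Nat) → List (Nat × Nat × Nat) → Option Nat
  | c, [] => match c with
    | [x, y] => cond (distinctC [x, y] && (pairOK 0 x y && pairOK 0 y x)) (some (x.1 + y.1)) none
    | _ => none
  | c, m :: ms => match moveF c m with
    | none => none
    | some c' => runF c' ms

theorem runF_sound : ∀ {ms : List (Nat × Nat × Nat)} {l : List W} {c : List (Nat × Nat)} {n : Nat},
    List.Forall₂ Coded l c → runF c ms = some n →
    (∃ G : W, Relation.ReflTransGen GreedyStep l.toFinset {G}) ∧
      ∀ G : W, Relation.ReflTransGen GreedyStep l.toFinset {G} → G.length = n := by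
  intro ms
  induction ms with
  | nil =>
    intro l c n h hr
    match c, h, hr with
    | [x, y], h, hr =>
      simp only [runF] at hr
      by_cases hb : (distinctC [x, y] && (pairOK 0 x y && pairOK 0 y x)) = true
      · rw [hb, cond_true, Option.some.injEq] at hr
        simp only [Bool.and_eq_true] at hb
        rw [← hr]
        exact last_sound h hb.1 hb.2.1 hb.2.2
      · rw [Bool.not_eq_true] at hb
        rw [hb] at hr
        simp at hr
    | [], h, hr => simp [runF] at hr
    | [x], h, hr => simp [runF] at hr
    | x :: y :: z :: r, h, hr => simp [runF] at hr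
  | cons m ms ih =>
    intro l c n h hr
    simp only [runF] at hr
    cases hm : moveF c m with
    | none => rw [hm] at hr; simp at hr
    | some d =>
      rw [hm] at hr
      simp only at hr
      obtain ⟨l1, h1, s1, u1, n1⟩ := moveF_sound h hm
      obtain ⟨⟨G, hG⟩, hall⟩ := ih h1 hr
      refine ⟨⟨G, Relation.ReflTransGen.head s1 hG⟩, ?_⟩
      intro G' hG'
      rcases Relation.ReflTransGen.cases_head hG' with hG' | ⟨F1, hs1, hG1⟩
      · exact absurd hG' (n1 G')
      · rw [u1 F1 hs1] at hG1
        exact hall G' hG1

end Vale.Agent.P333.CE
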