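import Vale.Agent.P333.CE.Forced

/-!
# The instance: 16 words (in run-length form) with a common superstring of length 711; the run of the
greedy algorithm is forced, and its output has length 1440
-/

namespace Vale.Agent.P333.CE.Inst2

open Vale.Agent.P333 Vale.Agent.P333.CE

/-- the words, in run-length form -/
def words : List (List (Fin 4 × Nat)) :=
  [
   [(2, 1), (3, 1), (2, 69), (3, 1), (2, 69), (3, 1), (2, 69)],
   [(2, 4), (3, 1), (2, 69), (3, 1), (2, 69), (3, 1), (2, 1)],
   [(2, 30), (3, 1), (2, 80), (3, 1), (2, 80), (3, 1)],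
   [(2, 69), (3, 1), (2, 80), (3, 1), (2, 31)],
   [(2, 78), (3, 3), (2, 80), (3, 3), (2, 77)],
   [(3, 1), (2, 80), (3, 3), (2, 79)],
   [(2, 32), (3, 3), (2, 77), (3, 3), (2, 77), (3, 3), (2, 74)],
   [(2, 77), (3, 3), (2, 77), (3, 3), (2, 77), (3, 3), (2, 35)],
   [(3, 1), (2, 74), (3, 3), (2, 74), (3, 3), (2, 3)],
   [(2, 74), (3, 3), (2, 74), (3, 3), (2, 74), (3, 3)],
   [(1, 1), (2, 4), (3, 1), (2, 69), (3, 1), (2, 68)],
   [(2, 2), (3, 1), (2, 69), (3, 1), (2, 78)],
   [(2, 67), (3, 1), (2, 80), (3, 3), (2, 76)],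
   [(2, 80), (3, 3), (2, 77), (3, 3), (2, 72)],
   [(2, 76), (3, 3), (2, 77), (3, 3), (2, 74), (3, 3), (2, 1)],
   [(2, 71), (3, 3), (2, 74), (3, 3), (2, 3), (0, 1)] ]

/-- the superstring, in run-length form -/
def sup : List (Fin 4 × Nat) :=
  [(1, 1), (2, 4), (3, 1), (2, 69), (3, 1), (2, 69), (3, 1), (2, 80), (3, 1), (2, 80), (3, 3), (2, 80), (3, 3), (2, 77), (3, 3), (2, 77), (3, 3), (2, 74), (3, 3), (2, 74), (3, 3), (2, 3), (0, 1)]

/-- the moves of greedy: positions in the current list of the two merged words, and the overlap -/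
def moves : List (Nat × Nat × Nat) :=
  [(6, 6, 234), (12, 12, 231), (6, 6, 161), (11, 1, 159), (7, 7, 157), (1, 9, 152), (6, 6, 151), (8, 1, 146), (5, 5, 144), (6, 1, 141), (5, 3, 36), (3, 2, 33), (3, 1, 32), (1, 0, 1)]

/-- offsets (from the right) of the words in the superstring -/
def offs : List Nat := [496, 564, 403, 453, 241, 322, 84, 123, 1, 4, 567, 487, 325, 166, 80, 0]

def runCheck : Bool :=
  match runF (words.map codeR) moves with
  | some n => Nat.beq n 1440
  | _ => false

def supCheck : Bool :=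
  (List.zip (words.map codeR) offs).all
    (fun x => Nat.ble (x.2 + x.1.1) (codeR sup).1 && facAt x.1 (codeR sup) x.2)

theorem runCheck_true : runCheck = true := by decide +kernel

theorem free_true : freeC (words.map codeR) = true := by decide +kernel

theorem supCheck_true : supCheck = true := by decide +kernel

theorem sup_len : (expand sup).length = 711 := by
  rw [(coded_expand sup).1]; decide +kernel

theorem run_eq : runF (words.map codeR) moves = some 1440 := by
  have hr := runCheck_true
  unfold runCheck at hr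
  split at hr
  · rename_i n hg
    rw [hg, Nat.eq_of_beq_eq_true hr]
  · exact absurd hr (by simp)

theorem sup_mem : ∀ s ∈ (words.map expand).toFinset, s <:+: expand sup := by
  intro s hs
  rw [List.mem_toFinset] at hs
  obtain ⟨x, hx, rfl⟩ := List.mem_map.1 hs
  have hz := supCheck_true
  unfold supCheck at hz
  rw [List.all_eq_true] at hz
  obtain ⟨i, hi, rfl⟩ := List.getElem_of_mem hx
  have hlen : offs.length = words.length := by decide +kernel
  have hmem : (codeR words[i], offs[i]'(by omega)) ∈ List.zip (words.map codeR) offs := by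
    rw [List.mem_iff_getElem]
    refine ⟨i, by simp; omega, by simp⟩
  have hz' := hz _ hmem
  rw [Bool.and_eq_true] at hz'
  exact infix_of_val (coded_expand _) (coded_expand sup) _
    (Nat.le_of_ble_eq_true hz'.1) hz'.2

theorem counterexample : ∃ (S : Finset W) (T : W), (∀ s ∈ S, s <:+: T) ∧ T.length = 711 ∧
    (∃ G : W, IsGreedyOutput S G) ∧ ∀ G : W, IsGreedyOutput S G → G.length = 1440 := by
  have hF := forall₂_expand words
  obtain ⟨h1, h2⟩ := runF_sound hF run_eq
  refine ⟨(words.map expand).toFinset, expand sup, sup_mem, sup_len, ?_, ?_⟩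
  · obtain ⟨G, hG⟩ := h1
    refine ⟨G, ?_⟩
    unfold IsGreedyOutput
    rw [reduce_eq hF free_true]
    exact hG
  · intro G hG
    unfold IsGreedyOutput at hG
    rw [reduce_eq hF free_true] at hG
    exact h2 G hG

end Vale.Agent.P333.CE.Inst2
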