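import Vale.Agent.P333.CE.Zero

/-!
P333: if the overlaps in a factor-free family have length at most `k`, then a run of the greedy
algorithm loses at most `k` letters per step.
-/

namespace Vale.Agent.P333

universe u

variable {α : Type u} [DecidableEq α]

theorem low_run {k : ℕ} {F F1 : Finset (List α)} (h : Relation.ReflTransGen GreedyStep F F1) :
    (∀ s ∈ F, ∀ t ∈ F, s <:+: t → s = t) →
    (∀ s ∈ F, ∀ t ∈ F, s ≠ t → ∀ o : List α, o <:+ s → o <+: t → o.length ≤ k) →
    ∑ s ∈ F, s.length + k * F1.card ≤ ∑ s ∈ F1, s.length + k * F.card := by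
  induction h using Relation.ReflTransGen.head_induction_on with
  | refl => intro _ _; exact le_rfl
  | head h1 h2 ih =>
    intro hff hz
    rename_i F F2
    obtain ⟨s, hs, t, ht, hst, o, ho1, ho2, hmax, rfl⟩ := h1
    have hok : o.length ≤ k := hz s hs t ht hst o ho1 ho2
    set z := s ++ t.drop o.length with hz0
    have hsi : s <:+: z := (List.prefix_append s _).isInfix
    obtain ⟨s1, hs1⟩ := ho1
    obtain ⟨t1, ht1⟩ := ho2
    have htd : t.drop o.length = t1 := by rw [← ht1, List.drop_left]
    have hz1 : z = s1 ++ t := by rw [hz0, htd, ← hs1, List.append_assoc, ht1]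
    have hts : t <:+ z := hz1 ▸ List.suffix_append s1 t
    have hsp : s <+: z := List.prefix_append s _
    have hrest : ∀ y ∈ (F.erase s).erase t, y ∈ F ∧ y ≠ s ∧ y ≠ t := by
      intro y hy
      rw [Finset.mem_erase, Finset.mem_erase] at hy
      exact ⟨hy.2.2, hy.2.1, hy.1⟩
    have hni : ∀ y ∈ (F.erase s).erase t, ¬ (z <:+: y) := by
      intro y hy hi
      obtain ⟨g1, g2, g3⟩ := hrest y hy
      exact g2 (hff s hs y g1 (hsi.trans hi)).symm
    have hni2 : ∀ y ∈ (F.erase s).erase t, ¬ (y <:+: z) := by
      intro y hy hi
      obtain ⟨g1, g2, g3⟩ := hrest y hy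
      rcases infix_append_cases hi with h4 | h4 | ⟨x1, x2, h4, h5, h6⟩
      · exact g2 (hff y g1 s hs h4)
      · exact g3 (hff y g1 t ht (h4.trans (List.drop_suffix _ _).isInfix))
      · rcases le_or_gt x1.length o.length with h7 | h7
        · -- `x1` is a suffix of `o`
          have h8 : x1 <:+ o :=
            List.suffix_of_suffix_length_le h5 ⟨s1, hs1⟩ h7
          apply g3
          apply hff y g1 t ht
          obtain ⟨a, ha⟩ := h8
          obtain ⟨b, hb⟩ := h6
          refine ⟨a, b, ?_⟩
          rw [htd] at hb
          rw [h4, ← ht1, ← ha, ← hb]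
          simp
        · have := hmax s hs y g1 (Ne.symm g2) x1 h5 ⟨x2, h4.symm⟩
          omega
    have hnm : z ∉ (F.erase s).erase t := fun hm => hni _ hm List.infix_rfl
    have hlz : z.length + o.length = s.length + t.length := by
      have h5 : t.length = o.length + t1.length := by rw [← ht1, List.length_append]
      rw [hz0, htd, List.length_append]
      omega
    have hsum : ∑ s ∈ F, s.length =
        ∑ x ∈ insert z ((F.erase s).erase t), x.length + o.length := by
      rw [Finset.sum_insert hnm, ← Finset.add_sum_erase _ _ hs,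
        ← Finset.add_sum_erase _ _ (Finset.mem_erase.2 ⟨Ne.symm hst, ht⟩)]
      omega
    have hcard : (insert z ((F.erase s).erase t)).card + 1 = F.card := by
      rw [Finset.card_insert_of_notMem hnm,
        Finset.card_erase_of_mem (Finset.mem_erase.2 ⟨Ne.symm hst, ht⟩),
        Finset.card_erase_of_mem hs]
      have : 2 ≤ F.card := Finset.one_lt_card.2 ⟨s, hs, t, ht, hst⟩
      omega
    have key := ih ?_ ?_
    · rw [hsum, ← hcard, Nat.mul_add, Nat.mul_one]
      omega
    · intro x hx y hy hxy
      rcases Finset.mem_insert.1 hx with rfl | hx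
      · rcases Finset.mem_insert.1 hy with rfl | hy
        · rfl
        · exact absurd hxy (hni _ hy)
      · rcases Finset.mem_insert.1 hy with rfl | hy
        · exact absurd hxy (hni2 _ hx)
        · exact hff x (hrest x hx).1 y (hrest y hy).1 hxy
    · intro x hx y hy hxy o' h1 h2
      refine le_trans ?_ hok
      rcases Finset.mem_insert.1 hx with rfl | hx
      · rcases Finset.mem_insert.1 hy with rfl | hy
        · exact absurd rfl hxy
        · obtain ⟨g1, g2, g3⟩ := hrest y hy
          rcases List.suffix_or_suffix_of_suffix h1 hts with h4 | h4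
          · exact hmax t ht y g1 (Ne.symm g3) o' h4 h2
          · exact absurd (hff t ht y g1 (h4.isInfix.trans h2.isInfix)).symm g3
      · obtain ⟨g1, g2, g3⟩ := hrest x hx
        rcases Finset.mem_insert.1 hy with rfl | hy
        · rcases List.prefix_or_prefix_of_prefix h2 hsp with h4 | h4
          · exact hmax x g1 s hs g2 o' h1 h4
          · exact absurd (hff s hs x g1 (h4.isInfix.trans h1.isInfix)).symm g2
        · exact hmax x g1 y (hrest y hy).1 hxy o' h1 h2

end Vale.Agent.P333
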