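import Vale.Agent.P333.Defs

/-!
P333: run-length coded words and a checker for all runs of the greedy algorithm.
-/

namespace Vale.Agent.P333.Rle

open Vale.Agent.P333

theorem beq_of {a b : ℕ} (h : a = b) : Nat.beq a b = true := by subst h; exact Nat.beq_refl a

theorem ble_of {a b : ℕ} (h : a ≤ b) : Nat.ble a b = true := by rw [Nat.ble_eq]; exact h

theorem le_of_ble {a b : ℕ} (h : Nat.ble a b = true) : a ≤ b := by rw [Nat.ble_eq] at h; exact h

/-- the word coded by a list of runs (letter, length) -/
def ex : List (ℕ × ℕ) → List ℕ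
  | [] => []
  | a :: A => List.replicate a.2 a.1 ++ ex A

/-- length of the coded word -/
def len : List (ℕ × ℕ) → ℕ
  | [] => 0
  | a :: A => a.2 + len A

theorem length_ex (A : List (ℕ × ℕ)) : (ex A).length = len A := by
  induction A with
  | nil => rfl
  | cons a A ih => simp [ex, len, ih]

/-- all runs are nonempty and consecutive runs have different letters -/
def nrm : List (ℕ × ℕ) → Bool
  | [] => true
  | a :: A => Nat.blt 0 a.2 &&
      (match A with
        | [] => true
        | b :: _ => !(Nat.beq a.1 b.1)) && nrm A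

theorem nrm_cons {a : ℕ × ℕ} {A : List (ℕ × ℕ)} (h : nrm (a :: A) = true) :
    0 < a.2 ∧ (ex A).head? ≠ some a.1 ∧ nrm A = true ∧ (A ≠ [] → ex A ≠ []) := by
  unfold nrm at h
  simp only [Bool.and_eq_true] at h
  obtain ⟨⟨h1, h2⟩, h3⟩ := h
  have h1' : 0 < a.2 := le_of_ble h1
  cases A with
  | nil => exact ⟨h1', by simp [ex], h3, by simp⟩
  | cons b A =>
    have h4 : 0 < b.2 := by
      unfold nrm at h3
      simp only [Bool.and_eq_true] at h3
      exact le_of_ble h3.1.1
    have h5 : a.1 ≠ b.1 := by
      simp only [Bool.not_eq_true'] at h2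
      intro e
      rw [e, Nat.beq_refl] at h2
      exact absurd h2 (by simp)
    obtain ⟨m, hm⟩ : ∃ m, b.2 = m + 1 := ⟨b.2 - 1, by omega⟩
    refine ⟨h1', ?_, h3, fun _ => ?_⟩
    · simp [ex, hm, List.replicate_succ, Ne.symm h5]
    · simp [ex, hm, List.replicate_succ]

theorem head_eq {r l c d : ℕ} {X Y : List ℕ} (hr : 0 < r) (hl : 0 < l)
    (h : List.replicate r c ++ X <+: List.replicate l d ++ Y) : c = d := by
  obtain ⟨r, rfl⟩ : ∃ m, r = m + 1 := ⟨r - 1, by omega⟩
  obtain ⟨l, rfl⟩ : ∃ m, l = m + 1 := ⟨l - 1, by omega⟩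
  rw [List.replicate_succ, List.replicate_succ, List.cons_append, List.cons_append,
    List.cons_prefix_cons] at h
  exact h.1

theorem run_eq {c : ℕ} {X Y : List ℕ} (hX : X.head? ≠ some c) (hX0 : X ≠ [])
    (hY : Y.head? ≠ some c) : ∀ (r l : ℕ),
    List.replicate r c ++ X <+: List.replicate l c ++ Y → r = l ∧ X <+: Y
  | 0, 0, h => ⟨rfl, by simpa using h⟩
  | 0, l + 1, h => by
    obtain ⟨x, X, rfl⟩ := List.exists_cons_of_ne_nil hX0
    rw [List.replicate_zero, List.nil_append, List.replicate_succ, List.cons_append,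
      List.cons_prefix_cons] at h
    exact absurd (by rw [h.1]; rfl) hX
  | r + 1, 0, h => by
    rw [List.replicate_zero, List.nil_append, List.replicate_succ, List.cons_append] at h
    cases Y with
    | nil => exact absurd (List.prefix_nil.1 h) (by simp)
    | cons y Y =>
      rw [List.cons_prefix_cons] at h
      exact absurd (by rw [← h.1]; rfl) hY
  | r + 1, l + 1, h => by
    rw [List.replicate_succ, List.replicate_succ, List.cons_append, List.cons_append,
      List.cons_prefix_cons] at h
    obtain ⟨h1, h2⟩ := run_eq hX hX0 hY r l h.2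
    exact ⟨by rw [h1], h2⟩

theorem run_le {c : ℕ} {Y : List ℕ} (hY : Y.head? ≠ some c) : ∀ (r l : ℕ),
    List.replicate r c <+: List.replicate l c ++ Y → r ≤ l
  | 0, _, _ => Nat.zero_le _
  | r + 1, 0, h => by
    rw [List.replicate_zero, List.nil_append, List.replicate_succ] at h
    cases Y with
    | nil => exact absurd (List.prefix_nil.1 h) (by simp)
    | cons y Y =>
      rw [List.cons_prefix_cons] at h
      exact absurd (by rw [← h.1]; rfl) hY
  | r + 1, l + 1, h => by
    rw [List.replicate_succ, List.replicate_succ, List.cons_append,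
      List.cons_prefix_cons] at h
    exact Nat.succ_le_succ (run_le hY r l h.2)

/-- prefix test -/
def pref : List (ℕ × ℕ) → List (ℕ × ℕ) → Bool
  | [], _ => true
  | a :: A, B =>
    match B with
    | [] => false
    | b :: B' => Nat.beq a.1 b.1 &&
        (match A with
          | [] => Nat.ble a.2 b.2
          | _ :: _ => Nat.beq a.2 b.2 && pref A B')

theorem pref_sound : ∀ {A B : List (ℕ × ℕ)}, nrm A = true → nrm B = true → ex A <+: ex B →
    pref A B = true
  | [], _, _, _, _ => by simp [pref]
  | a :: A, [], hA, _, h => by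
    have h1 := (nrm_cons hA).1
    have h2 := List.prefix_nil.1 h
    obtain ⟨m, hm⟩ : ∃ m, a.2 = m + 1 := ⟨a.2 - 1, by omega⟩
    simp [ex, hm, List.replicate_succ] at h2
  | a :: A, b :: B, hA, hB, h => by
    obtain ⟨a1, a2, a3, a4⟩ := nrm_cons hA
    obtain ⟨b1, b2, b3, b4⟩ := nrm_cons hB
    have hc : a.1 = b.1 := head_eq a1 b1 h
    unfold pref
    simp only [Bool.and_eq_true]
    refine ⟨beq_of hc, ?_⟩
    cases A with
    | nil =>
      simp only [ex, List.append_nil] at h
      rw [← hc] at h b2
      exact ble_of (run_le b2 _ _ h)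
    | cons a' A =>
      simp only [Bool.and_eq_true]
      unfold ex at h
      rw [← hc] at h b2
      obtain ⟨h1, h2⟩ := run_eq a2 (a4 (by simp)) b2 _ _ h
      exact ⟨beq_of h1, pref_sound a3 b3 h2⟩

/-- upper bound for the length of the overlaps -/
def ovb : List (ℕ × ℕ) → List (ℕ × ℕ) → ℕ
  | [], _ => 0
  | a :: A, B =>
    match B with
    | [] => 0
    | b :: B' =>
      match Nat.beq a.1 b.1 with
      | false => ovb A B
      | true =>
        match A with
        | [] => bif Nat.ble a.2 b.2 then a.2 else b.2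
        | _ :: _ => bif Nat.ble b.2 a.2 && pref A B' then b.2 + len A else ovb A B

theorem ovb_le_len : ∀ (A B : List (ℕ × ℕ)), ovb A B ≤ len A
  | [], B => by simp [ovb]
  | a :: A, [] => by simp [ovb]
  | [a], b :: B => by
    unfold ovb len
    simp only
    split
    · simp [ovb]
    · cases h : Nat.ble a.2 b.2
      · have : ¬ a.2 ≤ b.2 := by rw [← Nat.ble_eq]; simp [h]
        simp only [cond_false]; omega
      · simp only [cond_true]; omega
  | a :: a' :: A, b :: B => by
    have ih := ovb_le_len (a' :: A) (b :: B)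
    have e1 : len (a :: a' :: A) = a.2 + len (a' :: A) := rfl
    rw [ovb, e1]
    split
    · omega
    · cases h : (Nat.ble b.2 a.2 && pref (a' :: A) B)
      · simp only [cond_false]; omega
      · simp only [cond_true]
        simp only [Bool.and_eq_true] at h
        have := le_of_ble h.1
        omega

theorem suffix_run {o Z : List ℕ} {l c : ℕ} (h : o <:+ List.replicate l c ++ Z) :
    o <:+ Z ∨ ∃ r, 0 < r ∧ r ≤ l ∧ o = List.replicate r c ++ Z := by
  induction l with
  | zero => left; simpa using h
  | succ l ih =>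
    rw [List.replicate_succ, List.cons_append, List.suffix_cons_iff] at h
    rcases h with h | h
    · right
      exact ⟨l + 1, Nat.succ_pos _, le_rfl, by rw [h, List.replicate_succ, List.cons_append]⟩
    · rcases ih h with h | ⟨r, h1, h2, h3⟩
      · exact Or.inl h
      · exact Or.inr ⟨r, h1, by omega, h3⟩

theorem ovb_sound : ∀ {A B : List (ℕ × ℕ)}, nrm A = true → nrm B = true → ∀ {o : List ℕ},
    o <:+ ex A → o <+: ex B → o.length ≤ ovb A B
  | [], _, _, _, o, h, _ => by
    have := List.suffix_nil.1 h
    simp [this]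
  | a :: A, [], _, _, o, _, h => by
    have := List.prefix_nil.1 h
    simp [this]
  | [a], b :: B, hA, hB, o, h1, h2 => by
    obtain ⟨a1, a2, a3, a4⟩ := nrm_cons hA
    obtain ⟨b1, b2, b3, b4⟩ := nrm_cons hB
    rcases suffix_run h1 with h | ⟨r, hr, hrl, rfl⟩
    · have := List.suffix_nil.1 h
      simp [this]
    · have hc : a.1 = b.1 := head_eq hr b1 h2
      unfold ovb
      simp only
      rw [beq_of hc]
      simp only
      simp only [ex, List.append_nil] at h2 ⊢
      rw [← hc] at h2 b2
      have := run_le b2 _ _ h2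
      rw [List.length_replicate]
      cases h : Nat.ble a.2 b.2
      · simpa using this
      · simpa using hrl
  | a :: a' :: A, b :: B, hA, hB, o, h1, h2 => by
    obtain ⟨a1, a2, a3, a4⟩ := nrm_cons hA
    obtain ⟨b1, b2, b3, b4⟩ := nrm_cons hB
    rw [ovb]
    rcases suffix_run h1 with h | ⟨r, hr, hrl, rfl⟩
    · have ih := ovb_sound a3 hB h h2
      have ih2 : o.length ≤ len (a' :: A) := by rw [← length_ex]; exact h.length_le
      split
      · exact ih
      · cases h : (Nat.ble b.2 a.2 && pref (a' :: A) B)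
        · exact ih
        · simp only [cond_true]; omega
    · have hc : a.1 = b.1 := head_eq hr b1 h2
      rw [beq_of hc]
      have e2 : ex (b :: B) = List.replicate b.2 b.1 ++ ex B := rfl
      rw [e2, ← hc] at h2
      rw [← hc] at b2
      obtain ⟨h3, h4⟩ := run_eq a2 (a4 (by simp)) b2 _ _ h2
      have h5 := pref_sound a3 b3 h4
      have h6 : Nat.ble b.2 a.2 = true := ble_of (h3 ▸ hrl)
      rw [h5, h6]
      simp [length_ex, h3]

end Vale.Agent.P333.Rle
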