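import Vale.Agent.P333.CE.Check
import Vale.Agent.P333.CE.Low

/-!
P333: certificates for long forced greedy runs on run-length coded families, one lemma per step.
-/

namespace Vale.Agent.P333.Rle

open Vale.Agent.P333

/-- all runs from `L` end with a word of length at least `m` -/
def Concl (m : ℕ) (L : List (List (ℕ × ℕ))) : Prop :=
  ∀ G, Relation.ReflTransGen GreedyStep (fam L) {G} → m ≤ G.length

/-- all words are normal and different -/
def Valid (L : List (List (ℕ × ℕ))) : Prop :=
  (∀ A ∈ L, nrm A = true) ∧ (L.map ex).Nodup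

theorem valid_perm {L L' : List (List (ℕ × ℕ))} (h : L.Perm L') (v : Valid L) : Valid L' :=
  ⟨fun A hA => v.1 A (h.mem_iff.2 hA), (h.map ex).nodup_iff.1 v.2⟩

theorem concl_perm {m : ℕ} {L L' : List (List (ℕ × ℕ))} (h : L.Perm L') (c : Concl m L') :
    Concl m L := by
  intro G hG
  rw [fam_perm h] at hG
  exact c G hG

/-- both overlaps are shorter than `k` -/
def lt2 (k : ℕ) (A B : List (ℕ × ℕ)) : Bool := Nat.blt (ovb A B) k && Nat.blt (ovb B A) k

/-- all overlaps in `L` are shorter than `k` -/
def allp (k : ℕ) : List (List (ℕ × ℕ)) → Bool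
  | [] => true
  | A :: L => L.all (lt2 k A) && allp k L

theorem lt2_spec {k : ℕ} {A B : List (ℕ × ℕ)} (h : lt2 k A B = true) :
    ovb A B < k ∧ ovb B A < k := by
  unfold lt2 at h
  rw [Bool.and_eq_true] at h
  exact ⟨le_of_ble h.1, le_of_ble h.2⟩

theorem allp_spec {k : ℕ} : ∀ {L : List (List (ℕ × ℕ))}, allp k L = true →
    L.Pairwise fun A B => ovb A B < k ∧ ovb B A < k
  | [], _ => List.Pairwise.nil
  | A :: L, h => by
    unfold allp at h
    rw [Bool.and_eq_true, List.all_eq_true] at h
    exact List.Pairwise.cons (fun B hB => lt2_spec (h.1 B hB)) (allp_spec h.2)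

theorem allp_two {k : ℕ} : ∀ {L : List (List (ℕ × ℕ))}, allp k L = true →
    ∀ {A B : List (ℕ × ℕ)}, A ∈ L → B ∈ L → A ≠ B → ovb A B < k
  | [], _, A, _, hA, _, _ => by simp at hA
  | X :: L, h, A, B, hA, hB, hne => by
    unfold allp at h
    rw [Bool.and_eq_true, List.all_eq_true] at h
    rcases List.mem_cons.1 hA with hA1 | hA1
    · rcases List.mem_cons.1 hB with hB1 | hB1
      · exact absurd (hA1.trans hB1.symm) hne
      · rw [hA1]
        exact (lt2_spec (h.1 B hB1)).1
    · rcases List.mem_cons.1 hB with hB1 | hB1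
      · rw [hB1]
        exact (lt2_spec (h.1 A hA1)).2
      · exact allp_two h.2 hA1 hB1 hne

/-- the step merges `A` and `B` along `k` letters, no other pair is possible, and `M` is the new
word -/
def okS (k : ℕ) (A B M : List (ℕ × ℕ)) (R : List (List (ℕ × ℕ))) : Bool :=
  real A B k && (Nat.beq (ovb A B) k && (Nat.blt (ovb B A) k &&
    (R.all (lt2 k A) && (R.all (lt2 k B) && (allp k R &&
      (eqr (app A (drp k B)) M && (nrm M && R.all (fun C => !(pref M C && pref C M)))))))))

theorem valid_next {k : ℕ} {A B M : List (ℕ × ℕ)} {R : List (List (ℕ × ℕ))}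
    (h : okS k A B M R = true) (v : Valid (A :: B :: R)) : Valid (M :: R) := by
  unfold okS at h
  simp only [Bool.and_eq_true, List.all_eq_true] at h
  obtain ⟨h1, h2, h3, h4, h5, h6, h7, h8, h9⟩ := h
  refine ⟨?_, ?_⟩
  · intro C hC
    rcases List.mem_cons.1 hC with rfl | hC
    · exact h8
    · exact v.1 C (by simp [hC])
  · have h10 := v.2
    rw [List.map_cons, List.map_cons, List.nodup_cons, List.nodup_cons] at h10
    rw [List.map_cons, List.nodup_cons]
    refine ⟨fun hm => ?_, h10.2.2⟩
    obtain ⟨C, hC, he⟩ := List.mem_map.1 hm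
    have hn := v.1 C (by simp [hC])
    have h11 := pref_sound (A := M) (B := C) h8 hn (by rw [he])
    have h12 := pref_sound (A := C) (B := M) hn h8 (by rw [he])
    have h13 := h9 C hC
    rw [h11, h12] at h13
    simp at h13

theorem step_concl {m k : ℕ} {A B M : List (ℕ × ℕ)} {R : List (List (ℕ × ℕ))}
    (h : okS k A B M R = true) (v : Valid (A :: B :: R)) (c : Concl m (M :: R)) :
    Concl m (A :: B :: R) := by
  unfold okS at h
  simp only [Bool.and_eq_true, List.all_eq_true] at h
  obtain ⟨h1, h2, h3, h4, h5, h6, h7, h8, h9⟩ := h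
  have h2' : ovb A B = k := by rw [← Nat.beq_eq]; exact h2
  have h3' : ovb B A < k := le_of_ble h3
  have h7' := eqr_sound h7
  intro G hG
  have hd := v.2
  have hAB : ex A ≠ ex B := by
    intro e
    rw [List.map_cons, List.map_cons, List.nodup_cons] at hd
    exact hd.1 (by rw [e]; exact List.mem_cons_self)
  have mA : ex A ∈ fam (A :: B :: R) := by simp [fam]
  have mB : ex B ∈ fam (A :: B :: R) := by simp [fam]
  rcases Relation.ReflTransGen.cases_head hG with g1 | ⟨F', g1, g2⟩
  · rw [g1, Finset.mem_singleton] at mA mB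
    exact absurd (mA.trans mB.symm) hAB
  · obtain ⟨s, hs, t, ht, hst, o, ho1, ho2, hmax, rfl⟩ := g1
    obtain ⟨o0, e1, e2, e3⟩ := real_sound h1
    have hk1 : k ≤ o.length := by
      rw [← e3]
      exact hmax _ mA _ mB hAB o0 e1 e2
    obtain ⟨C, hC, rfl⟩ := List.mem_map.1 (List.mem_toFinset.1 hs)
    obtain ⟨D, hD, rfl⟩ := List.mem_map.1 (List.mem_toFinset.1 ht)
    have hCD : C ≠ D := fun e => hst (by rw [e])
    have hk2 : o.length ≤ ovb C D := ovb_sound (v.1 C hC) (v.1 D hD) ho1 ho2
    have key : C = A ∧ D = B := by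
      rcases List.mem_cons.1 hC with hC1 | hC1
      · rcases List.mem_cons.1 hD with hD1 | hD1
        · exact absurd (hC1.trans hD1.symm) hCD
        · rcases List.mem_cons.1 hD1 with hD2 | hD2
          · exact ⟨hC1, hD2⟩
          · have := (lt2_spec (h4 D hD2)).1
            rw [← hC1] at this
            omega
      · rcases List.mem_cons.1 hC1 with hC2 | hC2
        · rcases List.mem_cons.1 hD with hD1 | hD1
          · rw [← hC2, ← hD1] at h3'
            omega
          · rcases List.mem_cons.1 hD1 with hD2 | hD2
            · exact absurd (hC2.trans hD2.symm) hCD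
            · have := (lt2_spec (h5 D hD2)).1
              rw [← hC2] at this
              omega
        · rcases List.mem_cons.1 hD with hD1 | hD1
          · have := (lt2_spec (h4 C hC2)).2
            rw [← hD1] at this
            omega
          · rcases List.mem_cons.1 hD1 with hD2 | hD2
            · have := (lt2_spec (h5 C hC2)).2
              rw [← hD2] at this
              omega
            · have := allp_two h6 hC2 hD2 hCD
              omega
    obtain ⟨rfl, rfl⟩ := key
    have hok : o.length = k := by omega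
    have he : insert (ex C ++ (ex D).drop o.length)
        (((fam (C :: D :: R)).erase (ex C)).erase (ex D)) = fam (M :: R) := by
      rw [← h7']
      simp only [List.map_cons, List.nodup_cons, List.mem_cons, not_or] at hd
      ext x
      simp only [fam, List.map_cons, List.toFinset_cons, ex_app, ex_drp, hok,
        Finset.mem_insert, Finset.mem_erase, List.mem_toFinset]
      constructor
      · rintro (h5 | ⟨h5, h6, h7 | h7 | h7⟩)
        · exact Or.inl h5
        · exact absurd h7 h6
        · exact absurd h7 h5
        · exact Or.inr h7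
      · rintro (h5 | h5)
        · exact Or.inl h5
        · refine Or.inr ⟨?_, ?_, Or.inr (Or.inr h5)⟩
          · rintro rfl; exact hd.2.1 h5
          · rintro rfl; exact hd.1.2 h5
    rw [he] at g2
    exact c G g2

/-- the `i`-th member and the other ones -/
def pick {β : Type} : ℕ → List β → Option (β × List β)
  | _, [] => none
  | 0, a :: l => some (a, l)
  | i + 1, a :: l => match pick i l with
    | none => none
    | some p => some (p.1, a :: p.2)

theorem pick_perm {β : Type} : ∀ {i : ℕ} {l : List β} {a : β} {r : List β},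
    pick i l = some (a, r) → l.Perm (a :: r)
  | _, [], a, r, h => by simp [pick] at h
  | 0, b :: l, a, r, h => by
    simp only [pick, Option.some.injEq, Prod.mk.injEq] at h
    rw [h.1, h.2]
  | i + 1, b :: l, a, r, h => by
    unfold pick at h
    cases h1 : pick i l with
    | none => rw [h1] at h; simp at h
    | some p =>
      rw [h1] at h
      simp only [Option.some.injEq, Prod.mk.injEq] at h
      have h2 := pick_perm (a := p.1) (r := p.2) h1
      rw [← h.1, ← h.2]
      exact (h2.cons b).trans (List.Perm.swap _ _ _)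

theorem pick2_perm {β : Type} {i j : ℕ} {l r1 r : List β} {a b : β}
    (h1 : pick i l = some (a, r1)) (h2 : pick j r1 = some (b, r)) : l.Perm (a :: b :: r) :=
  (pick_perm h1).trans ((pick_perm h2).cons a)

/-- one step of the certificate -/
theorem next {m k i j : ℕ} {L R1 R : List (List (ℕ × ℕ))} {A B M : List (ℕ × ℕ)}
    (h1 : pick i L = some (A, R1)) (h2 : pick j R1 = some (B, R))
    (h : okS k A B M R = true) (c : Valid (M :: R) → Concl m (M :: R)) :
    Valid L → Concl m L := by
  intro v
  have hp := pick2_perm h1 h2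
  have v' := valid_perm hp v
  exact concl_perm hp (step_concl h v' (c (valid_next h v')))

/-- the end of the certificate: all remaining overlaps are shorter than `k` -/
def okE (m k : ℕ) (L : List (List (ℕ × ℕ))) : Bool :=
  ffree L && (allp k L && Nat.ble (m + k * L.length) (tot L + k))

theorem ffree_spec' {L : List (List (ℕ × ℕ))} (v : Valid L) (hf : ffree L = true) :
    ∀ s ∈ fam L, ∀ t ∈ fam L, s <:+: t → s = t := by
  intro s hs t ht hst
  by_contra hne
  obtain ⟨A, B, r, hA, hB, hr, hBr, rfl, rfl⟩ := two_mem hs ht hne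
  unfold ffree at hf
  simp only [List.all_eq_true] at hf
  have h1 := hf _ hr B hBr
  rw [inf_sound (v.1 A hA) (v.1 B hB) hst] at h1
  simp at h1

theorem finish {m k : ℕ} {L : List (List (ℕ × ℕ))} (h : okE m k L = true) :
    Valid L → Concl m L := by
  intro v G hG
  unfold okE at h
  simp only [Bool.and_eq_true] at h
  obtain ⟨h1, h2, h3⟩ := h
  have h3' := le_of_ble h3
  have h4 := low_run (k := k) hG (ffree_spec' v h1) ?_
  · rw [tot_eq v.2, Finset.sum_singleton, Finset.card_singleton, Nat.mul_one] at h4
    have h5 : (fam L).card ≤ L.length := by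
      unfold fam
      exact (List.toFinset_card_le _).trans (by rw [List.length_map])
    have h6 : k * (fam L).card ≤ k * L.length := Nat.mul_le_mul_left _ h5
    omega
  · intro s hs t ht hne o ho1 ho2
    obtain ⟨A, B, r, hA, hB, hr, hBr, rfl, rfl⟩ := two_mem hs ht hne
    have h5 := allp_two h2 hA hB (fun e => hne (by rw [e]))
    exact (ovb_sound (v.1 A hA) (v.1 B hB) ho1 ho2).trans h5.le

/-- the beginning of the certificate -/
theorem start {m : ℕ} {L : List (List (ℕ × ℕ))} {T : List (ℕ × ℕ)} {P : List ℕ}
    (h : (covers T L P && (ffree L && good L)) = true) (c : Valid L → Concl m L) :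
    (∀ s ∈ fam L, s <:+: ex T) ∧ ∀ G, IsGreedyOutput (fam L) G → m ≤ G.length := by
  simp only [Bool.and_eq_true] at h
  obtain ⟨h1, h2, h3⟩ := h
  refine ⟨?_, ?_⟩
  · intro s hs
    obtain ⟨A, hA, rfl⟩ : ∃ A ∈ L, ex A = s := by simpa [fam] using hs
    exact covers_sound h1 A hA
  · intro G hG
    unfold IsGreedyOutput at hG
    rw [reduceFamily_fam h3 h2] at hG
    exact c (good_spec h3) G hG

end Vale.Agent.P333.Rle
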