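import Mathlib
import Vale.Agent.P333.Defs

/-!
# Numeric certificates for runs of the greedy superstring algorithm

Words over `Fin 4` are coded by (length, value in base 4).  Every overlap test becomes one
equality of two natural numbers, which the kernel evaluates with fast arithmetic.
-/

namespace Vale.Agent.P333.CE

open Vale.Agent.P333

abbrev W := List (Fin 4)

/-- value in base 4 -/
def val (l : W) : Nat := l.foldl (fun a d => 4 * a + d.val) 0

theorem foldl_val (l : W) (a : Nat) :
    l.foldl (fun a d => 4 * a + d.val) a = a * 4 ^ l.length + val l := by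
  induction l generalizing a with
  | nil => simp [val]
  | cons d l ih =>
    simp only [List.foldl_cons, List.length_cons, val]
    rw [ih, ih (4 * 0 + d.val)]
    ring

theorem val_append (a b : W) : val (a ++ b) = val a * 4 ^ b.length + val b := by
  rw [val, List.foldl_append, foldl_val]; rfl

theorem val_cons (d : Fin 4) (l : W) : val (d :: l) = d.val * 4 ^ l.length + val l := by
  have := foldl_val l (4 * 0 + d.val)
  simpa [val] using this

theorem val_lt (l : W) : val l < 4 ^ l.length := by
  induction l with
  | nil => simp [val]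
  | cons d l ih =>
    rw [val_cons, List.length_cons, pow_succ]
    have := d.isLt
    have h4 : 0 < 4 ^ l.length := by positivity
    nlinarith

theorem val_inj : ∀ {a b : W}, a.length = b.length → val a = val b → a = b := by
  intro a
  induction a with
  | nil => intro b h _; exact (List.length_eq_zero_iff.1 h.symm).symm
  | cons d l ih =>
    intro b h hv
    cases b with
    | nil => simp at h
    | cons e m =>
      have hl : l.length = m.length := by simpa using h
      rw [val_cons, val_cons, hl] at hv
      have h1 := val_lt l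
      have h2 := val_lt m
      rw [hl] at h1
      have h4 : 0 < 4 ^ m.length := by positivity
      have e1 : (d.val * 4 ^ m.length + val l) / 4 ^ m.length = d.val := by
        rw [Nat.mul_comm, Nat.mul_add_div h4, Nat.div_eq_of_lt h1, Nat.add_zero]
      have e2 : (e.val * 4 ^ m.length + val m) / 4 ^ m.length = e.val := by
        rw [Nat.mul_comm, Nat.mul_add_div h4, Nat.div_eq_of_lt h2, Nat.add_zero]
      have hde : d.val = e.val := by rw [← e1, hv, e2]
      have hde' : d = e := Fin.ext hde
      subst hde'
      have : val l = val m := by omega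
      rw [ih hl this]

theorem val_mod {a b : W} : val (a ++ b) % 4 ^ b.length = val b := by
  rw [val_append, Nat.mul_comm, Nat.mul_add_mod, Nat.mod_eq_of_lt (val_lt b)]

theorem val_div {a b : W} : val (a ++ b) / 4 ^ b.length = val a := by
  have h4 : 0 < 4 ^ b.length := by positivity
  rw [val_append, Nat.mul_comm, Nat.mul_add_div h4, Nat.div_eq_of_lt (val_lt b), Nat.add_zero]

/-- a suffix of length `m` has the value `val % 4 ^ m` -/
theorem val_suffix {o s : W} (h : o <:+ s) : val o = val s % 4 ^ o.length := by
  obtain ⟨a, rfl⟩ := h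
  rw [val_mod]

/-- a prefix of length `m` has the value `val / 4 ^ (length - m)` -/
theorem val_prefix {o s : W} (h : o <+: s) : val o = val s / 4 ^ (s.length - o.length) := by
  obtain ⟨b, rfl⟩ := h
  have : (o ++ b).length - o.length = b.length := by simp
  rw [this, val_div]

/-- code of a word: (length, value) -/
def Coded (l : W) (c : Nat × Nat) : Prop := l.length = c.1 ∧ val l = c.2

/-- no overlap of `p` (end) and `q` (beginning) of length in `(k, m]` -/
def chk (vp vq lq k : Nat) (m : Nat) : Bool :=
  Nat.rec true (fun m ih => cond (Nat.ble (m + 1) k) true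
    (cond (Nat.beq (vp % 4 ^ (m + 1)) (vq / 4 ^ (lq - (m + 1)))) false ih)) m

theorem chk_zero (vp vq lq k : Nat) : chk vp vq lq k 0 = true := rfl

theorem chk_succ (vp vq lq k m : Nat) : chk vp vq lq k (m + 1) =
    cond (Nat.ble (m + 1) k) true
    (cond (Nat.beq (vp % 4 ^ (m + 1)) (vq / 4 ^ (lq - (m + 1)))) false (chk vp vq lq k m)) := rfl

theorem chk_sound {vp vq lq k : Nat} : ∀ {m : Nat}, chk vp vq lq k m = true →
    ∀ j, k < j → j ≤ m → vp % 4 ^ j ≠ vq / 4 ^ (lq - j) := by
  intro m
  induction m with
  | zero => intro _ j hj hm; omega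
  | succ m ih =>
    intro h j hj hm
    rw [chk_succ] at h
    by_cases h1 : m + 1 ≤ k
    · omega
    · have hb : Nat.ble (m + 1) k = false := by
        rw [Bool.eq_false_iff]; intro hc; exact h1 (Nat.le_of_ble_eq_true hc)
      rw [hb, cond_false] at h
      by_cases h2 : Nat.beq (vp % 4 ^ (m + 1)) (vq / 4 ^ (lq - (m + 1))) = true
      · rw [h2] at h; simp at h
      · rw [Bool.not_eq_true] at h2
        rw [h2, cond_false] at h
        by_cases h3 : j = m + 1
        · subst h3
          intro he
          rw [he] at h2
          have := Nat.beq_refl (vq / 4 ^ (lq - (m + 1)))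
          rw [this] at h2
          exact absurd h2 (by simp)
        · exact ih h j hj (by omega)

/-- all overlaps of the ordered pair have length at most `k` -/
def pairOK (k : Nat) (p q : Nat × Nat) : Bool := chk p.2 q.2 q.1 k (Nat.min p.1 q.1)

theorem pairOK_sound {k : Nat} {p q : W} {cp cq : Nat × Nat} (hp : Coded p cp) (hq : Coded q cq)
    (h : pairOK k cp cq = true) (o : W) (ho1 : o <:+ p) (ho2 : o <+: q) : o.length ≤ k := by
  by_contra hlt
  push Not at hlt
  have l1 := ho1.length_le
  have l2 := ho2.length_le
  have := chk_sound h o.length hlt (by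
    rw [← hp.1, ← hq.1]; exact Nat.le_min.2 ⟨l1, l2⟩)
  apply this
  rw [← hp.2, ← hq.2, ← hq.1, ← val_suffix ho1, ← val_prefix ho2]

/-- the overlap of length `k` exists -/
def hasOv (k : Nat) (p q : Nat × Nat) : Bool :=
  Nat.ble k p.1 && Nat.ble k q.1 && Nat.beq (p.2 % 4 ^ k) (q.2 / 4 ^ (q.1 - k))

theorem hasOv_sound {k : Nat} {p q : W} {cp cq : Nat × Nat} (hp : Coded p cp) (hq : Coded q cq)
    (h : hasOv k cp cq = true) : ∃ o : W, o.length = k ∧ o <:+ p ∧ o <+: q := by
  rw [hasOv, Bool.and_eq_true, Bool.and_eq_true] at h
  obtain ⟨⟨h1, h2⟩, h3⟩ := h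
  have h1 := Nat.le_of_ble_eq_true h1
  have h2 := Nat.le_of_ble_eq_true h2
  have h3 := Nat.eq_of_beq_eq_true h3
  rw [← hp.1] at h1
  rw [← hq.1] at h2
  refine ⟨q.take k, by simp [h2], ?_, List.take_prefix k q⟩
  have e : q.take k = p.drop (p.length - k) := by
    have a1 : (q.take k).length = k := by simp [h2]
    have a2 : (p.drop (p.length - k)).length = k := by simp; omega
    apply val_inj (by rw [a1, a2])
    have b1 := val_prefix (List.take_prefix k q)
    have b2 := val_suffix (List.drop_suffix (p.length - k) p)
    rw [a1] at b1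
    rw [a2] at b2
    rw [b1, b2, hp.2, hq.2, hq.1, h3]
  rw [e]
  exact List.drop_suffix _ _

/-- code of the merge -/
def mergeC (k : Nat) (p q : Nat × Nat) : Nat × Nat :=
  (p.1 + (q.1 - k), p.2 * 4 ^ (q.1 - k) + q.2 % 4 ^ (q.1 - k))

theorem mergeC_sound {k : Nat} {p q : W} {cp cq : Nat × Nat} (hp : Coded p cp) (hq : Coded q cq) :
    Coded (p ++ q.drop k) (mergeC k cp cq) := by
  have e : (q.drop k).length = q.length - k := by simp
  refine ⟨by simp [mergeC, hp.1, hq.1], ?_⟩
  have b2 := val_suffix (List.drop_suffix k q)
  rw [val_append, b2, e, hp.2, hq.2, hq.1, mergeC]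

/-! ### runs -/

/-- remove the entry number `i` -/
def pull {β : Type} : Nat → List β → Option (β × List β)
  | _, [] => none
  | 0, x :: xs => some (x, xs)
  | i + 1, x :: xs => (pull i xs).map (fun y => (y.1, x :: y.2))

theorem pull_perm {β : Type} : ∀ {i : Nat} {l : List β} {y : β} {ys : List β},
    pull i l = some (y, ys) → l.Perm (y :: ys) := by
  intro i
  induction i with
  | zero =>
    intro l y ys h
    cases l with
    | nil => simp [pull] at h
    | cons x xs => simp only [pull, Option.some.injEq, Prod.mk.injEq] at h; rw [h.1, h.2]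
  | succ i ih =>
    intro l y ys h
    cases l with
    | nil => simp [pull] at h
    | cons x xs =>
      simp only [pull, Option.map_eq_some_iff, Prod.mk.injEq, Prod.exists] at h
      obtain ⟨a, b, h1, h2, h3⟩ := h
      subst h2; subst h3
      exact ((ih h1).cons x).trans (List.Perm.swap _ _ _)

theorem pull_forall₂ {β γ : Type} {R : β → γ → Prop} : ∀ {i : Nat} {l : List β} {c : List γ}
    {d : γ} {ds : List γ}, List.Forall₂ R l c → pull i c = some (d, ds) →
    ∃ y ys, pull i l = some (y, ys) ∧ R y d ∧ List.Forall₂ R ys ds := by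
  intro i
  induction i with
  | zero =>
    intro l c d ds h hc
    cases h with
    | nil => simp [pull] at hc
    | cons h1 h2 =>
      simp only [pull, Option.some.injEq, Prod.mk.injEq] at hc
      obtain ⟨rfl, rfl⟩ := hc
      exact ⟨_, _, rfl, h1, h2⟩
  | succ i ih =>
    intro l c d ds h hc
    cases h with
    | nil => simp [pull] at hc
    | cons h1 h2 =>
      simp only [pull, Option.map_eq_some_iff, Prod.mk.injEq, Prod.exists] at hc
      obtain ⟨a, b, e1, e2, e3⟩ := hc
      subst e2; subst e3
      obtain ⟨y, ys, f1, f2, f3⟩ := ih h2 e1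
      exact ⟨y, _ :: ys, by simp [pull, f1], f2, List.Forall₂.cons h1 f3⟩

/-- all ordered pairs of different entries -/
def allPairs (k : Nat) : List (Nat × Nat) → Bool
  | [] => true
  | x :: xs => xs.all (fun y => pairOK k x y && pairOK k y x) && allPairs k xs

theorem allPairs_sound {k : Nat} : ∀ {l : List W} {c : List (Nat × Nat)},
    List.Forall₂ Coded l c → allPairs k c = true → ∀ s ∈ l, ∀ t ∈ l, s ≠ t →
    ∀ o : W, o <:+ s → o <+: t → o.length ≤ k := by
  intro l c h
  induction h with
  | nil => intro _ s hs; simp at hs
  | @cons p cp l c hp hl ih =>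
    intro hc s hs t ht hst o ho1 ho2
    simp only [allPairs, Bool.and_eq_true, List.all_eq_true] at hc
    obtain ⟨hc1, hc2⟩ := hc
    have key : ∀ q ∈ l, ∃ cq ∈ c, Coded q cq := by
      intro q hq
      obtain ⟨i, hi, rfl⟩ := List.getElem_of_mem hq
      have hlen := hl.length_eq
      exact ⟨(c)[i], List.getElem_mem (by omega), (List.forall₂_iff_get.1 hl).2 i hi (by omega)⟩
    rcases List.mem_cons.1 hs with rfl | hs'
    · rcases List.mem_cons.1 ht with rfl | ht'
      · exact absurd rfl hst
      · obtain ⟨cq, hcq, hq⟩ := key t ht'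
        exact pairOK_sound hp hq (hc1 cq hcq).1 o ho1 ho2
    · rcases List.mem_cons.1 ht with rfl | ht'
      · obtain ⟨cq, hcq, hq⟩ := key s hs'
        exact pairOK_sound hq hp (hc1 cq hcq).2 o ho1 ho2
      · exact ih hc2 s hs' t ht' hst o ho1 ho2

/-- pairwise different codes -/
def distinctC : List (Nat × Nat) → Bool
  | [] => true
  | x :: xs => xs.all (fun y => !(Nat.beq x.1 y.1 && Nat.beq x.2 y.2)) && distinctC xs

theorem distinctC_sound : ∀ {l : List W} {c : List (Nat × Nat)},
    List.Forall₂ Coded l c → distinctC c = true → l.Nodup := by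
  intro l c h
  induction h with
  | nil => intro _; exact List.nodup_nil
  | @cons p cp l c hp hl ih =>
    intro hc
    simp only [distinctC, Bool.and_eq_true, List.all_eq_true] at hc
    obtain ⟨hc1, hc2⟩ := hc
    refine List.nodup_cons.2 ⟨?_, ih hc2⟩
    intro hmem
    obtain ⟨i, hi, he⟩ := List.getElem_of_mem hmem
    have hlen := hl.length_eq
    have hcod : Coded l[i] (c)[i] := (List.forall₂_iff_get.1 hl).2 i hi (by omega)
    have h1 := hc1 (c)[i] (List.getElem_mem (by omega))
    rw [he] at hcod
    have e1 : cp.1 = (c)[i].1 := by rw [← hp.1, ← hcod.1]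
    have e2 : cp.2 = (c)[i].2 := by rw [← hp.2, ← hcod.2]
    rw [e1, e2, Nat.beq_refl, Nat.beq_refl] at h1
    simp at h1

/-- one move: entry `i` and then entry `j` of the rest are merged along an overlap of length `k` -/
def moveC (c : List (Nat × Nat)) (m : Nat × Nat × Nat) : Option (List (Nat × Nat)) :=
  match pull m.1 c with
  | none => none
  | some (p, r) => match pull m.2.1 r with
    | none => none
    | some (q, r') =>
      cond (distinctC c && (hasOv m.2.2 p q && allPairs m.2.2 c))
        (some (mergeC m.2.2 p q :: r')) none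

theorem moveC_sound {l : List W} {c : List (Nat × Nat)} {m : Nat × Nat × Nat}
    {c' : List (Nat × Nat)} (h : List.Forall₂ Coded l c) (hm : moveC c m = some c') :
    ∃ l' : List W, List.Forall₂ Coded l' c' ∧ GreedyStep l.toFinset l'.toFinset := by
  unfold moveC at hm
  cases hpq : pull m.1 c with
  | none => rw [hpq] at hm; simp at hm
  | some a =>
    obtain ⟨cp, cr⟩ := a
    rw [hpq] at hm
    simp only at hm
    cases hqq : pull m.2.1 cr with
    | none => rw [hqq] at hm; simp at hm
    | some b =>
      obtain ⟨cq, cr'⟩ := b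
      rw [hqq] at hm
      simp only at hm
      by_cases hb : (distinctC c && (hasOv m.2.2 cp cq && allPairs m.2.2 c)) = true
      · rw [hb, cond_true, Option.some.injEq] at hm
        simp only [Bool.and_eq_true] at hb
        obtain ⟨hd, ho, ha⟩ := hb
        obtain ⟨p, r, hp1, hp2, hp3⟩ := pull_forall₂ h hpq
        obtain ⟨q, r', hq1, hq2, hq3⟩ := pull_forall₂ hp3 hqq
        have hperm : l.Perm (p :: q :: r') :=
          (pull_perm hp1).trans ((pull_perm hq1).cons p)
        have hnd : (p :: q :: r').Nodup := hperm.nodup_iff.1 (distinctC_sound h hd)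
        have hpmem : p ∈ l := hperm.mem_iff.2 (by simp)
        have hqmem : q ∈ l := hperm.mem_iff.2 (by simp)
        have hpq' : p ≠ q := by
          intro he; subst he; simp at hnd
        obtain ⟨o, hol, ho1, ho2⟩ := hasOv_sound hp2 hq2 ho
        refine ⟨(p ++ q.drop m.2.2) :: r', ?_, ?_⟩
        · rw [← hm]
          exact List.Forall₂.cons (mergeC_sound hp2 hq2) hq3
        · refine ⟨p, List.mem_toFinset.2 hpmem, q, List.mem_toFinset.2 hqmem, hpq', o, ho1, ho2,
            ?_, ?_⟩
          · intro s' hs' t' ht' hst o' h1 h2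
            rw [hol]
            exact allPairs_sound h ha s' (List.mem_toFinset.1 hs') t' (List.mem_toFinset.1 ht')
              hst o' h1 h2
          · rw [hol, List.toFinset_eq_of_perm _ _ hperm, List.toFinset_cons, List.toFinset_cons,
              List.toFinset_cons]
            rw [List.nodup_cons, List.nodup_cons] at hnd
            obtain ⟨n1, n2, n3⟩ := hnd
            congr 1
            have e1 : (insert p (insert q r'.toFinset)).erase p = insert q r'.toFinset := by
              apply Finset.erase_insert
              simp only [Finset.mem_insert, List.mem_toFinset]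
              simpa using n1
            rw [e1]
            symm
            apply Finset.erase_insert
            simpa using n2
      · rw [Bool.not_eq_true] at hb
        rw [hb] at hm
        simp at hm

/-- a whole run -/
def runC : List (Nat × Nat) → List (Nat × Nat × Nat) → Option (List (Nat × Nat))
  | c, [] => some c
  | c, m :: ms => match moveC c m with
    | none => none
    | some c' => runC c' ms

theorem runC_sound : ∀ {ms : List (Nat × Nat × Nat)} {l : List W} {c c' : List (Nat × Nat)},
    List.Forall₂ Coded l c → runC c ms = some c' →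
    ∃ l' : List W, List.Forall₂ Coded l' c' ∧
      Relation.ReflTransGen GreedyStep l.toFinset l'.toFinset := by
  intro ms
  induction ms with
  | nil =>
    intro l c c' h hr
    simp only [runC, Option.some.injEq] at hr
    exact ⟨l, by rw [← hr]; exact h, Relation.ReflTransGen.refl⟩
  | cons m ms ih =>
    intro l c c' h hr
    simp only [runC] at hr
    cases hm : moveC c m with
    | none => rw [hm] at hr; simp at hr
    | some d =>
      rw [hm] at hr
      simp only at hr
      obtain ⟨l1, h1, s1⟩ := moveC_sound h hm
      obtain ⟨l2, h2, s2⟩ := ih h1 hr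
      exact ⟨l2, h2, Relation.ReflTransGen.head s1 s2⟩

/-! ### factors -/

/-- is `p` a factor of `q`: some offset `r` from the right in `[0, n)` works -/
def facAt (p q : Nat × Nat) (r : Nat) : Bool :=
  Nat.beq ((q.2 / 4 ^ r) % 4 ^ p.1) p.2

/-- no offset `< n` works -/
def noFac (p q : Nat × Nat) (n : Nat) : Bool :=
  Nat.rec true (fun r ih => cond (facAt p q r) false ih) n

theorem noFac_sound {p q : Nat × Nat} : ∀ {n : Nat}, noFac p q n = true → ∀ r < n,
    (q.2 / 4 ^ r) % 4 ^ p.1 ≠ p.2 := by
  intro n
  induction n with
  | zero => intro _ r hr; omega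
  | succ n ih =>
    intro h r hr
    have h' : cond (facAt p q n) false (noFac p q n) = true := h
    by_cases h1 : facAt p q n = true
    · rw [h1] at h'; simp at h'
    · rw [Bool.not_eq_true] at h1
      rw [h1, cond_false] at h'
      by_cases h2 : r = n
      · subst h2
        intro he
        rw [facAt, he, Nat.beq_refl] at h1
        exact absurd h1 (by simp)
      · exact ih h' r (by omega)

theorem infix_val {s t : W} (h : s <:+: t) :
    ∃ r, r + s.length ≤ t.length ∧ (val t / 4 ^ r) % 4 ^ s.length = val s := by
  obtain ⟨a, b, rfl⟩ := h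
  refine ⟨b.length, by simp; omega, ?_⟩
  rw [val_div, val_mod]

theorem not_infix {s t : W} {cs ct : Nat × Nat} (hs : Coded s cs) (ht : Coded t ct)
    (h : noFac cs ct (ct.1 + 1 - cs.1) = true) : ¬ s <:+: t := by
  intro hst
  obtain ⟨r, h1, h2⟩ := infix_val hst
  rw [hs.1, hs.2, ht.2] at h2
  rw [hs.1, ht.1] at h1
  exact noFac_sound h r (by omega) h2

theorem infix_of_val {s t : W} {cs ct : Nat × Nat} (hs : Coded s cs) (ht : Coded t ct) (r : Nat)
    (hr : r + cs.1 ≤ ct.1) (h : facAt cs ct r = true) : s <:+: t := by
  have h' := Nat.eq_of_beq_eq_true h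
  rw [← hs.1, ← ht.1] at hr
  -- t = a ++ u ++ b with |b| = r, |u| = |s|
  set b := t.drop (t.length - r) with hb
  set t' := t.take (t.length - r) with ht'
  have htt : t' ++ b = t := List.take_append_drop _ _
  have hbl : b.length = r := by rw [hb, List.length_drop]; omega
  have htl : t'.length = t.length - r := by rw [ht', List.length_take]; omega
  set u := t'.drop (t'.length - s.length) with hu
  set a := t'.take (t'.length - s.length) with ha
  have hau : a ++ u = t' := List.take_append_drop _ _
  have hul : u.length = s.length := by rw [hu, List.length_drop]; omega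
  have e1 : val t / 4 ^ r = val t' := by
    rw [← htt, ← hbl, val_div]
  have e2 : val t' % 4 ^ s.length = val u := by
    rw [← hau, ← hul, val_mod]
  have e3 : val u = val s := by
    rw [← e2, ← e1, ht.2, hs.1, h', hs.2]
  have e4 : u = s := val_inj hul e3
  refine ⟨a, b, ?_⟩
  rw [← e4, hau, htt]

/-- factor-freeness of a coded list -/
def freeC : List (Nat × Nat) → Bool
  | [] => true
  | x :: xs => xs.all (fun y => noFac x y (y.1 + 1 - x.1) && noFac y x (x.1 + 1 - y.1)) && freeC xs

theorem freeC_sound : ∀ {l : List W} {c : List (Nat × Nat)},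
    List.Forall₂ Coded l c → freeC c = true → ∀ s ∈ l, ∀ t ∈ l, s <:+: t → s = t := by
  intro l c h
  induction h with
  | nil => intro _ s hs; simp at hs
  | @cons p cp l c hp hl ih =>
    intro hc s hs t ht hst
    simp only [freeC, Bool.and_eq_true, List.all_eq_true] at hc
    obtain ⟨hc1, hc2⟩ := hc
    have key : ∀ q ∈ l, ∃ cq ∈ c, Coded q cq := by
      intro q hq
      obtain ⟨i, hi, rfl⟩ := List.getElem_of_mem hq
      have hlen := hl.length_eq
      exact ⟨(c)[i], List.getElem_mem (by omega), (List.forall₂_iff_get.1 hl).2 i hi (by omega)⟩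
    rcases List.mem_cons.1 hs with rfl | hs'
    · rcases List.mem_cons.1 ht with rfl | ht'
      · rfl
      · obtain ⟨cq, hcq, hq⟩ := key t ht'
        exact absurd hst (not_infix hp hq (hc1 cq hcq).1)
    · rcases List.mem_cons.1 ht with rfl | ht'
      · obtain ⟨cq, hcq, hq⟩ := key s hs'
        exact absurd hst (not_infix hq hp (hc1 cq hcq).2)
      · exact ih hc2 s hs' t ht' hst

theorem reduce_eq {l : List W} {c : List (Nat × Nat)} (h : List.Forall₂ Coded l c)
    (hc : freeC c = true) : reduceFamily l.toFinset = l.toFinset := by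
  unfold reduceFamily
  rw [Finset.filter_eq_self]
  intro s hs t ht hst
  exact freeC_sound h hc s (List.mem_toFinset.1 hs) t (List.mem_toFinset.1 ht) hst

/-! ### words given by runs -/

/-- the word `d^n ...` of a run-length list -/
def expand : List (Fin 4 × Nat) → W
  | [] => []
  | x :: xs => List.replicate x.2 x.1 ++ expand xs

/-- its code, computed from the right -/
def codeR : List (Fin 4 × Nat) → Nat × Nat
  | [] => (0, 0)
  | x :: xs => (x.2 + (codeR xs).1, x.1.val * ((4 ^ x.2 - 1) / 3) * 4 ^ (codeR xs).1 + (codeR xs).2)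

theorem val_replicate (n : Nat) (d : Fin 4) : val (List.replicate n d) = d.val * ((4 ^ n - 1) / 3) := by
  have geo : ∀ n : Nat, 3 * ((4 ^ n - 1) / 3) = 4 ^ n - 1 := by
    intro n
    apply Nat.mul_div_cancel'
    have := Nat.sub_dvd_pow_sub_pow 4 1 n
    simpa using this
  induction n with
  | zero => simp [val]
  | succ n ih =>
    rw [List.replicate_succ, val_cons, ih, List.length_replicate]
    have h1 := geo n
    have h2 := geo (n + 1)
    have h4 : 0 < 4 ^ n := by positivity
    have h5 : 4 ^ (n + 1) = 4 * 4 ^ n := by ring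
    have e : (4 ^ (n + 1) - 1) / 3 = 4 ^ n + (4 ^ n - 1) / 3 := by omega
    rw [e]; ring

theorem coded_expand : ∀ l : List (Fin 4 × Nat), Coded (expand l) (codeR l)
  | [] => ⟨rfl, rfl⟩
  | x :: xs => by
    have ih := coded_expand xs
    refine ⟨by simp [expand, codeR, ih.1], ?_⟩
    rw [expand, val_append, val_replicate, ih.1, ih.2, codeR]

theorem forall₂_expand : ∀ L : List (List (Fin 4 × Nat)),
    List.Forall₂ Coded (L.map expand) (L.map codeR)
  | [] => List.Forall₂.nil
  | x :: xs => List.Forall₂.cons (coded_expand x) (forall₂_expand xs)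

end Vale.Agent.P333.CE
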